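import Vale.Agent.Lib.P064X.XMain
import Vale.Agent.Lib.P064.SharpFinal

/-!
The thresholds.
-/

open Finset

namespace Vale.Agent.Lib.P064

/-- The exponent in terms of `p_E`. -/
noncomputable def xExpo (n : ℕ) (P : ℝ) : ℝ :=
  (16 / 5) * (Real.log ((n : ℝ) * P) + 3) * Real.log (Real.log n) /
    (Real.log n - Real.log ((n : ℝ) * P) - 2)

/-- Elementary consequences of `1000 (n P)^2 ≤ n`. -/
lemma x_denom_pos {n : ℕ} {P : ℝ} (hD1 : 1 ≤ (n : ℝ) * P)
    (hD2 : 1000 * ((n : ℝ) * P) ^ 2 ≤ n) :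
    0 ≤ Real.log ((n : ℝ) * P) ∧ (1000 : ℝ) ≤ n ∧
      Real.log n / 2 + 1 ≤ Real.log n - Real.log ((n : ℝ) * P) - 2 ∧ (6 : ℝ) ≤ Real.log n := by
  have hnP : (0 : ℝ) < (n : ℝ) * P := by linarith
  have hg : 0 ≤ Real.log ((n : ℝ) * P) := Real.log_nonneg hD1
  have h1000 : (1000 : ℝ) ≤ n := by nlinarith
  have hn0 : (0 : ℝ) < n := by linarith
  have hlog : Real.log (1000 * ((n : ℝ) * P) ^ 2) ≤ Real.log n :=
    Real.log_le_log (by positivity) hD2
  rw [Real.log_mul (by norm_num) (by positivity), Real.log_pow] at hlog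
  have h6 : (6 : ℝ) ≤ Real.log 1000 := by
    rw [Real.le_log_iff_exp_le (by norm_num)]
    have he := Real.exp_one_lt_d9
    have h : Real.exp 6 = Real.exp 1 ^ 6 := by
      rw [← Real.exp_nat_mul]
      norm_num
    rw [h]
    have h5 : Real.exp 1 ^ 6 ≤ (3 : ℝ) ^ 6 :=
      pow_le_pow_left₀ (Real.exp_pos _).le (by linarith) 6
    norm_num at h5
    linarith
  have hL6 : (6 : ℝ) ≤ Real.log n := by
    have : ((2 : ℕ) : ℝ) * Real.log ((n : ℝ) * P) ≥ 0 := by positivity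
    linarith
  refine ⟨hg, h1000, ?_, hL6⟩
  push_cast at hlog
  linarith

/-- The comparison of `xK n q` with `p_E`: `2 P ≤ q ≤ 4 P`, so `log (n q) + 1 ≤ log (n P) + 3` and
`- log q ≥ log n - log (n P) - 2 > 0`, and `log n / (n q) ≤ log n / (n P)`. -/
theorem xK_le {n : ℕ} {q P : ℝ} (hL : 1 ≤ Real.log n) (hD1 : 1 ≤ (n : ℝ) * P) (hq2 : 2 * P ≤ q)
    (hq4 : q ≤ 4 * P) (hQ : Real.log n / 2 ≤ - Real.log q)
    (hD2 : 1000 * ((n : ℝ) * P) ^ 2 ≤ n) :
    xK n q ≤ xC * (Real.exp (xExpo n P) + Real.log n / ((n : ℝ) * P)) := by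
  obtain ⟨hg, h1000, hden, hL6⟩ := x_denom_pos hD1 hD2
  have hn0 : (0 : ℝ) < n := by linarith
  have hP0 : 0 < P := by
    by_contra h
    push Not at h
    nlinarith
  have hq0 : 0 < q := by linarith
  have hnP : (0 : ℝ) < (n : ℝ) * P := by positivity
  have hnq : (0 : ℝ) < (n : ℝ) * q := by positivity
  have hlog4 : Real.log 4 ≤ 2 := by
    have h2 : Real.log 4 ≤ Real.log (Real.exp 2) := by
      apply Real.log_le_log (by norm_num)
      have he := Real.add_one_le_exp (1 : ℝ)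
      have h : Real.exp 2 = Real.exp 1 ^ 2 := by
        rw [← Real.exp_nat_mul]
        norm_num
      rw [h]
      nlinarith
    rwa [Real.log_exp] at h2
  have hlog4' : 0 ≤ Real.log 4 := Real.log_nonneg (by norm_num)
  -- the numerator
  have hg1 : Real.log ((n : ℝ) * q) ≤ Real.log ((n : ℝ) * P) + 2 := by
    have h1 : Real.log ((n : ℝ) * q) ≤ Real.log (4 * ((n : ℝ) * P)) := by
      apply Real.log_le_log hnq
      nlinarith
    rw [Real.log_mul (by norm_num) hnP.ne'] at h1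
    linarith
  have hg0 : 0 ≤ Real.log ((n : ℝ) * q) := by
    apply Real.log_nonneg
    nlinarith
  -- the denominator
  have hlam : Real.log n - Real.log ((n : ℝ) * P) - 2 ≤ - Real.log q := by
    have h1 : Real.log q ≤ Real.log (4 * P) := Real.log_le_log hq0 hq4
    rw [Real.log_mul (by norm_num) hP0.ne'] at h1
    have h2 : Real.log ((n : ℝ) * P) = Real.log n + Real.log P := Real.log_mul hn0.ne' hP0.ne'
    linarith
  have hden0 : 0 < Real.log n - Real.log ((n : ℝ) * P) - 2 := by linarith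
  have hLL : 0 ≤ Real.log (Real.log n) := Real.log_nonneg hL
  have hkap : xKap n q ≤ xExpo n P := by
    unfold xKap xExpo
    apply div_le_div₀ (by positivity) _ hden0 hlam
    apply mul_le_mul_of_nonneg_right _ hLL
    apply mul_le_mul_of_nonneg_left _ (by norm_num)
    linarith
  have hlq : Real.log n / ((n : ℝ) * q) ≤ Real.log n / ((n : ℝ) * P) := by
    apply div_le_div_of_nonneg_left (by linarith) hnP
    nlinarith
  unfold xK
  have hC : 0 ≤ xC := (Real.exp_pos _).le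
  apply mul_le_mul_of_nonneg_left _ hC
  have := Real.exp_le_exp.2 hkap
  linarith

/-- Arithmetic of the main case. -/
lemma x_arith_main {a k q X Ex B P L Θ T1 T2 C A0 : ℝ} (ha : 0 ≤ a) (hX : 0 ≤ X) (hk : k ≤ X * (Ex + B))
    (hq4 : q ≤ 4 * P) (hq0 : 0 < q) (hP : 0 < P) (hEB : 0 ≤ Ex + B) (hL : 0 ≤ L)
    (hΘ : Θ = a * k * q) (hA0 : A0 = a * X * 4) (hC1 : A0 ≤ C) (hC2 : 512 * A0 ≤ C)
    (h1 : T1 ≤ Θ) (h2 : T2 ≤ 512 * L * Θ) :
    T1 ≤ C * P * (Ex + B) ∧ T2 ≤ C * P * L * (Ex + B) := by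
  have h3 : k * q ≤ (X * (Ex + B)) * (4 * P) :=
    mul_le_mul hk hq4 hq0.le (by positivity)
  have hΘle : Θ ≤ A0 * (P * (Ex + B)) := by
    rw [hΘ, hA0]
    calc a * k * q = a * (k * q) := by ring
      _ ≤ a * ((X * (Ex + B)) * (4 * P)) := mul_le_mul_of_nonneg_left h3 ha
      _ = _ := by ring
  have hbase : 0 ≤ P * (Ex + B) := by positivity
  constructor
  · calc T1 ≤ Θ := h1
      _ ≤ A0 * (P * (Ex + B)) := hΘle
      _ ≤ C * (P * (Ex + B)) := mul_le_mul_of_nonneg_right hC1 hbase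
      _ = _ := by ring
  · calc T2 ≤ 512 * L * Θ := h2
      _ ≤ 512 * L * (A0 * (P * (Ex + B))) := mul_le_mul_of_nonneg_left hΘle (by positivity)
      _ = (512 * A0) * (P * L * (Ex + B)) := by ring
      _ ≤ C * (P * L * (Ex + B)) := mul_le_mul_of_nonneg_right hC2 (by positivity)
      _ = _ := by ring

/-- Arithmetic of the case of small `log n`. -/
lemma x_arith_small {C₀ C₁ P L Ex B T1 T2 C : ℝ} (hC₀ : 0 ≤ C₀) (hC₁ : 0 ≤ C₁) (hP : 0 < P)
    (hL0 : 0 ≤ L) (hL : L ≤ 32) (hEx : 1 ≤ Ex) (hB : 0 ≤ B)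
    (h1 : T1 ≤ C₀ * P * L) (h2 : T2 ≤ C₁ * P * L ^ 2) (hC1 : 32 * C₀ ≤ C) (hC2 : 32 * C₁ ≤ C) :
    T1 ≤ C * P * (Ex + B) ∧ T2 ≤ C * P * L * (Ex + B) := by
  have hbase : 0 ≤ P * (Ex + B) := by
    have : 0 ≤ Ex + B := by linarith
    positivity
  have hbase1 : P ≤ P * (Ex + B) := by nlinarith
  have hPL : 0 ≤ P * L := by positivity
  have hbase2 : P * L ≤ P * L * (Ex + B) := by nlinarith
  constructor
  · calc T1 ≤ C₀ * P * L := h1
      _ ≤ C₀ * P * 32 := mul_le_mul_of_nonneg_left hL (by positivity)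
      _ = (32 * C₀) * P := by ring
      _ ≤ (32 * C₀) * (P * (Ex + B)) := mul_le_mul_of_nonneg_left hbase1 (by positivity)
      _ ≤ C * (P * (Ex + B)) := mul_le_mul_of_nonneg_right hC1 hbase
      _ = _ := by ring
  · calc T2 ≤ C₁ * P * L ^ 2 := h2
      _ = C₁ * (P * L) * L := by ring
      _ ≤ C₁ * (P * L) * 32 := mul_le_mul_of_nonneg_left hL (by positivity)
      _ = (32 * C₁) * (P * L) := by ring
      _ ≤ (32 * C₁) * (P * L * (Ex + B)) := mul_le_mul_of_nonneg_left hbase2 (by positivity)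
      _ ≤ C * (P * L * (Ex + B)) := mul_le_mul_of_nonneg_right hC2 (by positivity)
      _ = _ := by ring

/-- The hypotheses on `q` from those on `P`. -/
lemma x_q_facts {n : ℕ} {q P : ℝ} (hn : 2 ≤ n) (hD1 : 1 ≤ (n : ℝ) * P)
    (hD2 : 1000 * ((n : ℝ) * P) ^ 2 ≤ n) (hq2 : 2 * P ≤ q) (hq4 : q ≤ 4 * P) (hP : 0 < P) :
    0 < q ∧ 1 ≤ (n : ℝ) * q ∧ (Real.exp 1 * ((n : ℝ) * q)) ^ 2 < n := by
  have hn0 : (0 : ℝ) < n := by
    have : (2 : ℝ) ≤ n := by exact_mod_cast hn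
    linarith
  have hq0 : 0 < q := by linarith
  have hD0 : 0 < (n : ℝ) * P := by positivity
  have hqD : 1 ≤ (n : ℝ) * q := by nlinarith
  have hqD4 : (n : ℝ) * q ≤ 4 * ((n : ℝ) * P) := by nlinarith
  refine ⟨hq0, hqD, ?_⟩
  have he := Real.exp_one_lt_d9
  have he0 := Real.exp_pos 1
  have h3 : Real.exp 1 * ((n : ℝ) * q) ≤ 3 * (4 * ((n : ℝ) * P)) :=
    mul_le_mul (by linarith) hqD4 (by positivity) (by norm_num)
  have h4 : (Real.exp 1 * ((n : ℝ) * q)) ^ 2 ≤ (3 * (4 * ((n : ℝ) * P))) ^ 2 :=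
    pow_le_pow_left₀ (by positivity) h3 2
  nlinarith

/-- The bound for a fixed `q`. -/
lemma x_thresholds_q {V : Type} [Fintype V] {H : SimpleGraph V} {n : ℕ} {q P C₀ C₁ C : ℝ}
    (hn : 2 ≤ n) (hV : Fintype.card V ≤ n) (hH : H ≠ ⊥) (hG : GoodDensity n q H)
    (hD1 : 1 ≤ (n : ℝ) * P) (hD2 : 1000 * ((n : ℝ) * P) ^ 2 ≤ n) (hq2 : 2 * P ≤ q) (hq4 : q ≤ 4 * P)
    (hP : 0 < P) (hC₀ : 0 ≤ C₀) (hC₁ : 0 ≤ C₁)
    (h0 : pTilde n H ≤ C₀ * P * Real.log n) (h1 : pc n H ≤ C₁ * P * Real.log n ^ 2)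
    (hC0 : 32 * C₀ ≤ C) (hC1 : 32 * C₁ ≤ C) (hC2 : (xA * Real.exp 1) ^ 2 * xC * 4 ≤ C)
    (hC3 : 512 * ((xA * Real.exp 1) ^ 2 * xC * 4) ≤ C) :
    pTilde n H ≤ C * P * (Real.exp (xExpo n P) + Real.log n / ((n : ℝ) * P)) ∧
      pc n H ≤ C * P * Real.log n * (Real.exp (xExpo n P) + Real.log n / ((n : ℝ) * P)) := by
  obtain ⟨hg, h1000, hden, hL6⟩ := x_denom_pos hD1 hD2
  obtain ⟨hq0, hqD, hD2q⟩ := x_q_facts hn hD1 hD2 hq2 hq4 hP
  have hL1 : 1 ≤ Real.log n := by linarith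
  have hD0 : 0 < (n : ℝ) * P := by linarith
  have hqe : q ≤ Real.exp (-1) := spq_of_D2 hn hq0 hD2q
  have hQ : Real.log n / 2 ≤ - Real.log q := spQ_of_D2 hn hq0 hqD hD2q
  have hB0 : 0 ≤ Real.log n / ((n : ℝ) * P) := div_nonneg (by linarith) hD0.le
  have hExpo0 : 0 ≤ xExpo n P := by
    unfold xExpo
    apply div_nonneg
    · have : 0 ≤ Real.log (Real.log n) := Real.log_nonneg hL1
      positivity
    · linarith
  have hEx1 : 1 ≤ Real.exp (xExpo n P) := Real.one_le_exp hExpo0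
  by_cases hQ16 : 16 ≤ - Real.log q
  · have hEmb := embBound_x hG hn hV hq0 hqe hL1 hQ16 hqD hD2q
    have hK := xK_le (n := n) (q := q) (P := P) hL1 hD1 hq2 hq4 hQ hD2
    have hKpos : 0 < xK n q := by
      unfold xK
      have : 0 ≤ Real.log n / ((n : ℝ) * q) := div_nonneg (by linarith) (by positivity)
      have h2 := Real.exp_pos (xKap n q)
      have h3 : 0 < xC := Real.exp_pos _
      positivity
    have hxA : 0 < xA := Real.exp_pos _
    have ha : 0 ≤ (xA * Real.exp 1) ^ 2 := by positivity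
    have hΘ0 : 0 < (xA * Real.exp 1) ^ 2 * xK n q * q := by positivity
    exact x_arith_main (a := (xA * Real.exp 1) ^ 2) (k := xK n q) (q := q) (X := xC)
      (Ex := Real.exp (xExpo n P)) (B := Real.log n / ((n : ℝ) * P)) (P := P) (L := Real.log n)
      (Θ := (xA * Real.exp 1) ^ 2 * xK n q * q) (A0 := (xA * Real.exp 1) ^ 2 * xC * 4) (C := C)
      ha (Real.exp_pos _).le hK hq4 hq0 hP (by linarith) (by linarith) rfl rfl hC2 hC3
      (pTilde_le_of_embBound hV hΘ0 hEmb) (pc_le_of_embBound hn hV hH hΘ0 hEmb)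
  · push Not at hQ16
    have hL32 : Real.log n ≤ 32 := by linarith
    exact x_arith_small hC₀ hC₁ hP (by linarith) hL32 hEx1 hB0 h0 h1 hC0 hC1

/-- The bound for the tilde threshold and the threshold. Model: `sparse_thresholds` in
`Lib/P064S/Final.lean`. If `- log q < 16` then `log n < 32`: use `pTilde_le_pE_log`, `pc_le_pE_log_sq`
(`xExpo ≥ 0` since `log (log n) ≥ 0` and the denominator is positive). -/
theorem x_thresholds :
    ∃ C : ℝ, 0 < C ∧ ∀ (n : ℕ) (V : Type) [Fintype V] (H : SimpleGraph V), 2 ≤ n →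
      Fintype.card V ≤ n → H ≠ ⊥ → 1 ≤ (n : ℝ) * pE n H →
      1000 * ((n : ℝ) * pE n H) ^ 2 ≤ n →
      pTilde n H ≤ C * pE n H *
          (Real.exp (xExpo n (pE n H)) + Real.log n / ((n : ℝ) * pE n H)) ∧
      pc n H ≤ C * pE n H * Real.log n *
          (Real.exp (xExpo n (pE n H)) + Real.log n / ((n : ℝ) * pE n H)) := by
  obtain ⟨C₀, hC₀, h0⟩ := pTilde_le_pE_log
  obtain ⟨C₁, hC₁, h1⟩ := pc_le_pE_log_sq
  have hxA : 0 < xA := Real.exp_pos _
  have hxC : 0 < xC := Real.exp_pos _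
  have hA1 : 0 < (xA * Real.exp 1) ^ 2 * xC * 4 := by positivity
  refine ⟨512 * ((xA * Real.exp 1) ^ 2 * xC * 4) + 32 * C₀ + 32 * C₁, by positivity, ?_⟩
  intro n V _ H hn hV hH hD1 hD2
  have hE0 : 0 < pE n H := pE_pos hn hV hH
  obtain ⟨ι⟩ : Nonempty (V ↪ Fin n) :=
    Function.Embedding.nonempty_of_card_le (by simpa using hV)
  have hlt : pE n H < 2 * pE n H := by linarith
  obtain ⟨p, ⟨h0p, h1p, hp⟩, hp2⟩ := exists_lt_of_csInf_lt (pE_set_nonempty (H := H) ι) hlt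
  have hpE : pE n H ≤ p := csInf_le ⟨0, fun _ hy => hy.1⟩ ⟨h0p, h1p, hp⟩
  have hG : GoodDensity n (2 * p) H := good_of_subgraphs h0p h1p hp
  exact x_thresholds_q (q := 2 * p) (P := pE n H) hn hV hH hG hD1 hD2 (by linarith) (by linarith) hE0
    hC₀.le hC₁.le (h0 n hn V H hV hH) (h1 n hn V H hV hH) (by linarith) (by linarith) (by linarith)
    (by linarith)

end Vale.Agent.Lib.P064
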