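import Vale.Agent.Lib.P064X.XNum

/-!
The final inequalities of the fibre.
-/

open Finset

namespace Vale.Agent.Lib.P064

/-- Numeric base case. -/
lemma xn_base {c : ℝ} (hc : c ≤ 9) : Real.exp c * xCc 192 ≤ xC := by
  have h1 : (14303616 : ℝ) ≤ Real.exp 29 := by
    have h2 : (2 : ℝ) ≤ Real.exp 1 := by
      have := Real.add_one_le_exp (1 : ℝ)
      linarith
    have h3 : Real.exp 29 = Real.exp 1 ^ 29 := by
      rw [← Real.exp_nat_mul]
      norm_num
    rw [h3]
    calc (14303616 : ℝ) ≤ 2 ^ 29 := by norm_num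
      _ ≤ Real.exp 1 ^ 29 := pow_le_pow_left₀ (by norm_num) h2 _
  have h4 : xCc 192 = 14303616 * Real.exp 2 := by
    unfold xCc
    push_cast
    norm_num
  have h5 : Real.exp c ≤ Real.exp 9 := Real.exp_le_exp.2 hc
  have h6 : Real.exp 40 = Real.exp 9 * Real.exp 29 * Real.exp 2 := by
    rw [← Real.exp_add, ← Real.exp_add]
    norm_num
  rw [h4]
  unfold xC
  rw [h6]
  have h7 : 0 < Real.exp 2 := Real.exp_pos _
  have h8 : 0 < Real.exp 9 := Real.exp_pos _
  have h9 : 0 < Real.exp c := Real.exp_pos _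
  calc Real.exp c * (14303616 * Real.exp 2) = Real.exp c * 14303616 * Real.exp 2 := by ring
    _ ≤ Real.exp 9 * Real.exp 29 * Real.exp 2 := by
        apply mul_le_mul_of_nonneg_right _ h7.le
        exact mul_le_mul h5 h1 (by norm_num) h8.le

lemma xn_xCc_nonneg : 0 ≤ xCc 192 := by
  unfold xCc
  positivity

lemma xn_xK_ge {n : ℕ} {q : ℝ} (hlq : 0 ≤ Real.log n / ((n : ℝ) * q)) :
    xC * Real.exp (xKap n q) ≤ xK n q := by
  unfold xK
  have : 0 < xC := by
    unfold xC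
    exact Real.exp_pos _
  apply mul_le_mul_of_nonneg_left _ this.le
  linarith

/-- The core of both cases: `(exp c * xCc)^m * exp(m κ) ≤ xK^m`. -/
lemma xn_core {n : ℕ} {q : ℝ} {m : ℕ} {c : ℝ} (hc : c ≤ 9) (hlq : 0 ≤ Real.log n / ((n : ℝ) * q)) :
    Real.exp ((m : ℝ) * c) * xCc 192 ^ m * Real.exp ((m : ℝ) * xKap n q) ≤ xK n q ^ m := by
  have h1 : Real.exp ((m : ℝ) * c) = Real.exp c ^ m := by rw [Real.exp_nat_mul]
  have h2 : Real.exp ((m : ℝ) * xKap n q) = Real.exp (xKap n q) ^ m := by rw [Real.exp_nat_mul]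
  rw [h1, h2]
  have h3 : Real.exp c ^ m * xCc 192 ^ m * Real.exp (xKap n q) ^ m =
      (Real.exp c * xCc 192 * Real.exp (xKap n q)) ^ m := by
    rw [mul_pow, mul_pow]
  rw [h3]
  apply pow_le_pow_left₀
  · have := xn_xCc_nonneg
    positivity
  · have h4 := xn_base hc
    have h5 := xn_xK_ge hlq
    have h6 : 0 < Real.exp (xKap n q) := Real.exp_pos _
    calc Real.exp c * xCc 192 * Real.exp (xKap n q) ≤ xC * Real.exp (xKap n q) :=
          mul_le_mul_of_nonneg_right h4 h6.le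
      _ ≤ xK n q := h5

/-- The final inequalities of the fibre, case `t ≤ e² x`: `x = n^a q^m`, `a ≤ m`, `P` the pinned bound. -/
theorem x_final_A {n : ℕ} {q : ℝ} {a m : ℕ} {x t : ℝ} (hKap : 0 ≤ xKap n q) (hlq : 0 ≤ Real.log n / ((n : ℝ) * q))
    (ha : 1 ≤ a) (ham : a ≤ m) (hx : 0 ≤ x) (ht0 : 0 ≤ t) (ht : t ≤ Real.exp 2 * x) :
    (a : ℝ) * (t * a) * (Real.exp (2 * (m : ℝ)) * xCc 192 ^ m * Real.exp ((a : ℝ) * ((2 / 3) * xKap n q))) ≤
      xA ^ a * xK n q ^ m * x := by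
  have ha1 : (1 : ℝ) ≤ a := by exact_mod_cast ha
  have ham1 : (a : ℝ) ≤ m := by exact_mod_cast ham
  have hcc := xn_xCc_nonneg
  have hA : xA ^ a = Real.exp ((a : ℝ) * 8) := by
    unfold xA
    rw [Real.exp_nat_mul]
  -- first factor
  have h1 : (a : ℝ) ^ 2 * Real.exp 2 ≤ Real.exp ((a : ℝ) * 8) := by
    have h2 : (a : ℝ) ≤ Real.exp a := by
      have := Real.add_one_le_exp (a : ℝ)
      linarith
    have h3 : (a : ℝ) ^ 2 ≤ Real.exp a ^ 2 := pow_le_pow_left₀ (by linarith) h2 2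
    have h4 : Real.exp a ^ 2 = Real.exp (2 * (a : ℝ)) := by
      rw [← Real.exp_nat_mul]
      norm_num
    have h5 : Real.exp 2 ≤ Real.exp (2 * (a : ℝ)) := Real.exp_le_exp.2 (by linarith)
    have h6 : Real.exp (2 * (a : ℝ)) * Real.exp (2 * (a : ℝ)) = Real.exp (4 * (a : ℝ)) := by
      rw [← Real.exp_add]
      ring_nf
    have h7 : Real.exp (4 * (a : ℝ)) ≤ Real.exp ((a : ℝ) * 8) := Real.exp_le_exp.2 (by linarith)
    calc (a : ℝ) ^ 2 * Real.exp 2 ≤ Real.exp (2 * (a : ℝ)) * Real.exp (2 * (a : ℝ)) := by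
          apply mul_le_mul _ h5 (Real.exp_pos _).le (Real.exp_pos _).le
          rw [← h4]
          exact h3
      _ = Real.exp (4 * (a : ℝ)) := h6
      _ ≤ _ := h7
  -- second factor
  have h8 : Real.exp (2 * (m : ℝ)) * xCc 192 ^ m * Real.exp ((a : ℝ) * ((2 / 3) * xKap n q)) ≤
      xK n q ^ m := by
    have h9 : (a : ℝ) * ((2 / 3) * xKap n q) ≤ (m : ℝ) * xKap n q := by
      have : (a : ℝ) * xKap n q ≤ (m : ℝ) * xKap n q := mul_le_mul_of_nonneg_right ham1 hKap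
      have h0 : 0 ≤ (a : ℝ) * xKap n q := by positivity
      nlinarith
    have h10 := xn_core (n := n) (q := q) (m := m) (c := 2) (by norm_num) hlq
    have h11 : Real.exp ((m : ℝ) * 2) = Real.exp (2 * (m : ℝ)) := by rw [mul_comm]
    rw [h11] at h10
    refine le_trans ?_ h10
    apply mul_le_mul_of_nonneg_left (Real.exp_le_exp.2 h9)
    positivity
  have h12 : 0 ≤ Real.exp (2 * (m : ℝ)) * xCc 192 ^ m * Real.exp ((a : ℝ) * ((2 / 3) * xKap n q)) := by
    positivity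
  have h13 : (a : ℝ) * (t * a) ≤ Real.exp ((a : ℝ) * 8) * x := by
    have h14 : (a : ℝ) * (t * a) = (a : ℝ) ^ 2 * t := by ring
    rw [h14]
    have h15 : (a : ℝ) ^ 2 * t ≤ (a : ℝ) ^ 2 * (Real.exp 2 * x) :=
      mul_le_mul_of_nonneg_left ht (by positivity)
    have h16 : (a : ℝ) ^ 2 * (Real.exp 2 * x) = ((a : ℝ) ^ 2 * Real.exp 2) * x := by ring
    rw [h16] at h15
    exact h15.trans (mul_le_mul_of_nonneg_right h1 hx)
  rw [hA]
  calc (a : ℝ) * (t * a) * (Real.exp (2 * (m : ℝ)) * xCc 192 ^ m * Real.exp ((a : ℝ) * ((2 / 3) * xKap n q)))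
      ≤ (Real.exp ((a : ℝ) * 8) * x) * xK n q ^ m := by
        apply mul_le_mul h13 h8 h12
        positivity
    _ = Real.exp ((a : ℝ) * 8) * xK n q ^ m * x := by ring

/-- The final inequalities of the fibre, case `t ≤ b L`: `b ≤ 2 m`, at least one excess edge, so
`lam - 1 ≤ a (g + 1)`, `L ≤ exp (a (1/3) xKap)` when `lam ≥ 16`; `exp(-m) ≤ x`. -/
theorem x_final_B {n : ℕ} {q : ℝ} {a m b : ℕ} {x t : ℝ} (hn : 1 ≤ n) (hq0 : 0 < q) (hD : 1 ≤ (n : ℝ) * q)
    (hL : 1 ≤ Real.log n) (hQ : 16 ≤ - Real.log q)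
    (ha : 1 ≤ a) (ham : a + 1 ≤ m) (hb : b ≤ 2 * m) (hx : Real.exp (-(m : ℝ)) ≤ x) (ht0 : 0 ≤ t)
    (hxa : - Real.log q - 1 ≤ (a : ℝ) * (Real.log ((n : ℝ) * q) + 1))
    (ht : t ≤ (b : ℝ) * Real.log n) :
    (a : ℝ) * (t * a) * (Real.exp (2 * (m : ℝ)) * xCc 192 ^ m * Real.exp ((a : ℝ) * ((2 / 3) * xKap n q))) ≤
      xA ^ a * xK n q ^ m * x := by
  have ha1 : (1 : ℝ) ≤ a := by exact_mod_cast ha
  have ham1 : (a : ℝ) + 1 ≤ m := by exact_mod_cast ham
  have hb1 : (b : ℝ) ≤ 2 * m := by exact_mod_cast hb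
  have hcc := xn_xCc_nonneg
  have hn0 : (0 : ℝ) < n := by
    have : (1 : ℝ) ≤ n := by exact_mod_cast hn
    linarith
  have hlq : 0 ≤ Real.log n / ((n : ℝ) * q) := div_nonneg (by linarith) (by linarith)
  have hg : 0 ≤ Real.log ((n : ℝ) * q) := Real.log_nonneg hD
  have hlogL : 0 ≤ Real.log (Real.log n) := Real.log_nonneg hL
  have hlam : 0 < - Real.log q := by linarith
  have hKap : 0 ≤ xKap n q := by
    unfold xKap
    apply div_nonneg _ hlam.le
    positivity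
  have hx0 : 0 ≤ x := (Real.exp_pos _).le.trans hx
  -- L is small
  have hLe : Real.log n ≤ Real.exp ((a : ℝ) * (xKap n q / 3)) := by
    have h1 : Real.log (Real.log n) ≤ (a : ℝ) * (xKap n q / 3) := by
      have h2 : (a : ℝ) * (xKap n q / 3) =
          (16 / 15) * ((a : ℝ) * (Real.log ((n : ℝ) * q) + 1)) * Real.log (Real.log n) / (- Real.log q) := by
        unfold xKap
        ring
      rw [h2, le_div_iff₀ hlam]
      have h3 : - Real.log q ≤ (16 / 15) * ((a : ℝ) * (Real.log ((n : ℝ) * q) + 1)) := by linarith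
      have := mul_le_mul_of_nonneg_right h3 hlogL
      nlinarith
    have h4 : 0 < Real.log n := by linarith
    calc Real.log n = Real.exp (Real.log (Real.log n)) := (Real.exp_log h4).symm
      _ ≤ _ := Real.exp_le_exp.2 h1
  -- the polynomial factor
  have hm1 : (1 : ℝ) ≤ m := by linarith
  have hpoly : (a : ℝ) * (b * a) ≤ Real.exp ((m : ℝ) * 4) := by
    have h1 : (a : ℝ) * (b * a) ≤ (m : ℝ) * ((2 * m) * m) := by
      have h2 : (a : ℝ) ≤ m := by linarith
      have h3 : (0 : ℝ) ≤ a := by linarith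
      have h4 : (0 : ℝ) ≤ b := by positivity
      have h5 : (b : ℝ) * a ≤ (2 * m) * m := mul_le_mul hb1 h2 h3 (by linarith)
      exact mul_le_mul h2 h5 (by positivity) (by linarith)
    have h6 : (m : ℝ) ≤ Real.exp m := by
      have := Real.add_one_le_exp (m : ℝ)
      linarith
    have h7 : (2 : ℝ) ≤ Real.exp m := by
      have := Real.add_one_le_exp (m : ℝ)
      linarith
    have h8 : Real.exp ((m : ℝ) * 4) = Real.exp m * (Real.exp m * (Real.exp m * Real.exp m)) := by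
      rw [← Real.exp_add, ← Real.exp_add, ← Real.exp_add]
      ring_nf
    rw [h8]
    have h9 : 0 < Real.exp (m : ℝ) := Real.exp_pos _
    have hm0 : (0 : ℝ) ≤ m := by linarith
    calc (a : ℝ) * (b * a) ≤ (m : ℝ) * ((2 * m) * m) := h1
      _ = (m : ℝ) * (2 * (m * m)) := by ring
      _ ≤ Real.exp m * (Real.exp m * (Real.exp m * Real.exp m)) := by
          apply mul_le_mul h6 _ (by positivity) h9.le
          apply mul_le_mul h7 _ (by positivity) h9.le
          exact mul_le_mul h6 h6 hm0 h9.le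
  have hA : 1 ≤ xA ^ a := one_le_pow₀ one_le_xA
  have hE : 0 ≤ Real.exp (2 * (m : ℝ)) * xCc 192 ^ m := by positivity
  -- assemble
  have hstep : (a : ℝ) * (t * a) * Real.exp ((a : ℝ) * ((2 / 3) * xKap n q)) ≤
      Real.exp ((m : ℝ) * 4) * Real.exp ((m : ℝ) * xKap n q) := by
    have h1 : (a : ℝ) * (t * a) ≤ ((a : ℝ) * (b * a)) * Real.log n := by
      have h2 : (0 : ℝ) ≤ (a : ℝ) * a := by positivity
      have h3 := mul_le_mul_of_nonneg_left ht h2
      nlinarith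
    have h4 : Real.log n * Real.exp ((a : ℝ) * ((2 / 3) * xKap n q)) ≤ Real.exp ((m : ℝ) * xKap n q) := by
      have h5 : Real.log n * Real.exp ((a : ℝ) * ((2 / 3) * xKap n q)) ≤
          Real.exp ((a : ℝ) * (xKap n q / 3)) * Real.exp ((a : ℝ) * ((2 / 3) * xKap n q)) :=
        mul_le_mul_of_nonneg_right hLe (Real.exp_pos _).le
      have h6 : Real.exp ((a : ℝ) * (xKap n q / 3)) * Real.exp ((a : ℝ) * ((2 / 3) * xKap n q)) =
          Real.exp ((a : ℝ) * xKap n q) := by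
        rw [← Real.exp_add]
        ring_nf
      rw [h6] at h5
      refine h5.trans (Real.exp_le_exp.2 ?_)
      exact mul_le_mul_of_nonneg_right (by linarith) hKap
    have h7 : 0 < Real.exp ((a : ℝ) * ((2 / 3) * xKap n q)) := Real.exp_pos _
    calc (a : ℝ) * (t * a) * Real.exp ((a : ℝ) * ((2 / 3) * xKap n q))
        ≤ ((a : ℝ) * (b * a)) * Real.log n * Real.exp ((a : ℝ) * ((2 / 3) * xKap n q)) :=
          mul_le_mul_of_nonneg_right h1 h7.le
      _ = ((a : ℝ) * (b * a)) * (Real.log n * Real.exp ((a : ℝ) * ((2 / 3) * xKap n q))) := by ring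
      _ ≤ Real.exp ((m : ℝ) * 4) * Real.exp ((m : ℝ) * xKap n q) :=
          mul_le_mul hpoly h4 (by
            have := Real.exp_pos ((a : ℝ) * ((2 / 3) * xKap n q))
            have : 0 < Real.log n := by linarith
            positivity) (Real.exp_pos _).le
  have hcore := xn_core (n := n) (q := q) (m := m) (c := 7) (by norm_num) hlq
  have hsplit : Real.exp ((m : ℝ) * 7) = Real.exp ((m : ℝ) * 4) * Real.exp (2 * (m : ℝ)) * Real.exp (m : ℝ) := by
    rw [← Real.exp_add, ← Real.exp_add]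
    ring_nf
  have h1x : 1 ≤ Real.exp (m : ℝ) * x := by
    have h2 : Real.exp (m : ℝ) * Real.exp (-(m : ℝ)) = 1 := by
      rw [← Real.exp_add]
      simp
    calc (1 : ℝ) = Real.exp (m : ℝ) * Real.exp (-(m : ℝ)) := h2.symm
      _ ≤ _ := mul_le_mul_of_nonneg_left hx (Real.exp_pos _).le
  have hkey : (a : ℝ) * (t * a) * (Real.exp (2 * (m : ℝ)) * xCc 192 ^ m * Real.exp ((a : ℝ) * ((2 / 3) * xKap n q))) ≤
      xK n q ^ m * x := by
    have h3 : (a : ℝ) * (t * a) * (Real.exp (2 * (m : ℝ)) * xCc 192 ^ m * Real.exp ((a : ℝ) * ((2 / 3) * xKap n q)))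
        = ((a : ℝ) * (t * a) * Real.exp ((a : ℝ) * ((2 / 3) * xKap n q))) * (Real.exp (2 * (m : ℝ)) * xCc 192 ^ m) := by
      ring
    rw [h3]
    have h4 : ((a : ℝ) * (t * a) * Real.exp ((a : ℝ) * ((2 / 3) * xKap n q))) * (Real.exp (2 * (m : ℝ)) * xCc 192 ^ m)
        ≤ (Real.exp ((m : ℝ) * 4) * Real.exp ((m : ℝ) * xKap n q)) * (Real.exp (2 * (m : ℝ)) * xCc 192 ^ m) :=
      mul_le_mul_of_nonneg_right hstep hE
    refine h4.trans ?_
    have h5 : (Real.exp ((m : ℝ) * 4) * Real.exp ((m : ℝ) * xKap n q)) * (Real.exp (2 * (m : ℝ)) * xCc 192 ^ m) * 1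
        ≤ (Real.exp ((m : ℝ) * 4) * Real.exp ((m : ℝ) * xKap n q)) * (Real.exp (2 * (m : ℝ)) * xCc 192 ^ m) * (Real.exp (m : ℝ) * x) :=
      mul_le_mul_of_nonneg_left h1x (by positivity)
    rw [mul_one] at h5
    refine h5.trans ?_
    have h6 : (Real.exp ((m : ℝ) * 4) * Real.exp ((m : ℝ) * xKap n q)) * (Real.exp (2 * (m : ℝ)) * xCc 192 ^ m) * (Real.exp (m : ℝ) * x)
        = (Real.exp ((m : ℝ) * 7) * xCc 192 ^ m * Real.exp ((m : ℝ) * xKap n q)) * x := by
      rw [hsplit]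
      ring
    rw [h6]
    exact mul_le_mul_of_nonneg_right hcore hx0
  have hK0 : 0 ≤ xK n q ^ m * x := by
    apply mul_nonneg _ hx0
    apply pow_nonneg
    unfold xK xC
    have : 0 < Real.exp (xKap n q) := Real.exp_pos _
    have : 0 < Real.exp (40 : ℝ) := Real.exp_pos _
    positivity
  calc _ ≤ xK n q ^ m * x := hkey
    _ ≤ xA ^ a * (xK n q ^ m * x) := by
        have := mul_le_mul_of_nonneg_right hA hK0
        linarith
    _ = xA ^ a * xK n q ^ m * x := by ring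

/-- The pendant case. -/
theorem x_pendant {n : ℕ} {q : ℝ} (hD : 1 ≤ (n : ℝ) * q) (hL : 0 ≤ Real.log n) (hKap : 0 ≤ xKap n q) :
    Real.exp 2 * (1 + Real.log n / ((n : ℝ) * q)) ≤ xA * xK n q := by
  have hr : 0 ≤ Real.log n / ((n : ℝ) * q) := div_nonneg hL (by linarith)
  have h1 : 1 ≤ Real.exp (xKap n q) := Real.one_le_exp hKap
  have h2 : Real.exp 2 ≤ xA * xC := by
    unfold xA xC
    rw [← Real.exp_add]
    exact Real.exp_le_exp.2 (by norm_num)
  have h3 : 0 < xA * xC := by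
    unfold xA xC
    positivity
  calc Real.exp 2 * (1 + Real.log n / ((n : ℝ) * q))
      ≤ (xA * xC) * (Real.exp (xKap n q) + Real.log n / ((n : ℝ) * q)) := by
        apply mul_le_mul h2 (by linarith) (by linarith) h3.le
    _ = xA * xK n q := by
        unfold xK
        ring

end Vale.Agent.Lib.P064
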