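import Vale.Agent.Lib.P064S.Base

/-!
Slots and patterns.
-/

open Finset

namespace Vale.Agent.Lib.P064

open scoped Classical

variable {α V : Type} [Fintype α] [Fintype V]

/-- Slots for a relation with bounded out-degree. -/
theorem exists_slots (Ar : V → V → Prop) {D : ℕ} (hD : 1 ≤ D)
    (hout : ∀ a, (univ.filter fun b => Ar a b).card ≤ D) :
    ∃ (sl : V → V → Fin D) (succ : V → Fin D → V), ∀ a b, Ar a b → succ a (sl a b) = b := by
  have key : ∀ a : V, ∃ (s : V → Fin D) (t : Fin D → V), ∀ b, Ar a b → t (s b) = b := by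
    intro a
    set A : Finset V := univ.filter fun b => Ar a b with hA
    have hcard : Fintype.card (↥A) ≤ Fintype.card (Fin D) := by
      simpa using hout a
    obtain ⟨e⟩ := Function.Embedding.nonempty_of_card_le hcard
    refine ⟨fun b => if h : b ∈ A then e ⟨b, h⟩ else ⟨0, hD⟩,
      fun i => if h : ∃ x : ↥A, e x = i then (h.choose : V) else a, ?_⟩
    intro b hb
    have hbA : b ∈ A := Finset.mem_filter.2 ⟨mem_univ _, hb⟩
    have hs : (if h : b ∈ A then e ⟨b, h⟩ else ⟨0, hD⟩) = e ⟨b, hbA⟩ := dif_pos hbA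
    simp only [hs]
    have hex : ∃ x : ↥A, e x = e ⟨b, hbA⟩ := ⟨⟨b, hbA⟩, rfl⟩
    rw [dif_pos hex]
    have := e.injective hex.choose_spec
    exact congrArg Subtype.val this
  choose s t hst using key
  exact ⟨s, t, hst⟩

/-- The ordered pairs of adjacent vertices in `Y ∪ P` touching `P`. -/
noncomputable def xDom (F : SimpleGraph α) (Y P : Finset α) : Finset (α × α) :=
  univ.filter fun d => F.Adj d.1 d.2 ∧ d.1 ∈ Y ∪ P ∧ d.2 ∈ Y ∪ P ∧ (d.1 ∈ P ∨ d.2 ∈ P)

/-- Each edge gives two ordered pairs. (`hdisj` makes `newE F Y P` the edges of `Y ∪ P` touching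
`P`.) -/
theorem xDom_card (F : SimpleGraph α) {Y P : Finset α} (hdisj : Disjoint P Y) :
    (xDom F Y P).card ≤ 2 * (newE F Y P).card := by
  have hmaps : ∀ d ∈ xDom F Y P, s(d.1, d.2) ∈ newE F Y P := by
    intro d hd
    obtain ⟨_, hadj, h1, h2, h3⟩ := Finset.mem_filter.1 hd
    unfold newE eIn
    refine Finset.mem_sdiff.2 ⟨Finset.mem_filter.2 ⟨mem_univ _, ?_, ?_⟩, ?_⟩
    · exact hadj
    · intro x hx
      rcases Sym2.mem_iff.1 hx with rfl | rfl
      · exact h1
      · exact h2
    · intro h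
      obtain ⟨_, _, hall⟩ := Finset.mem_filter.1 h
      have hd1 : d.1 ∈ Y := hall _ (Sym2.mem_mk_left _ _)
      have hd2 : d.2 ∈ Y := hall _ (Sym2.mem_mk_right _ _)
      rcases h3 with h3 | h3
      · exact Finset.disjoint_left.1 hdisj h3 hd1
      · exact Finset.disjoint_left.1 hdisj h3 hd2
  have hfib : ∀ e ∈ newE F Y P,
      ((xDom F Y P).filter fun d => s(d.1, d.2) = e).card ≤ 2 := by
    intro e _
    induction e using Sym2.ind with
    | _ a b =>
      have hsub : ((xDom F Y P).filter fun d => s(d.1, d.2) = s(a, b)) ⊆ {(a, b), (b, a)} := by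
        intro d hd
        have h := (Finset.mem_filter.1 hd).2
        rcases Sym2.eq_iff.1 h with ⟨h1, h2⟩ | ⟨h1, h2⟩
        · simp [Prod.ext_iff, h1, h2]
        · simp [Prod.ext_iff, h1, h2]
      exact (Finset.card_le_card hsub).trans Finset.card_le_two
  have := Finset.card_le_mul_card_image_of_maps_to (f := fun d : α × α => s(d.1, d.2))
    (s := xDom F Y P) (t := newE F Y P) hmaps 2 hfib
  simpa [mul_comm] using this

/-- The pattern of a map. -/
noncomputable def xpat {D : ℕ} (Ar : V → V → Prop) (sl : V → V → Fin D) (Dm : Finset (α × α))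
    (φ : α → V) : α × α → Option (Fin D) := fun d =>
  if d ∈ Dm ∧ Ar (φ d.1) (φ d.2) then some (sl (φ d.1) (φ d.2)) else none

/-- Splitting a family by the pattern. The values of the pattern outside `Dm` are `none`, so there
are at most `(D+1)^|Dm|` patterns. -/
theorem card_le_pat {D : ℕ} (Ar : V → V → Prop) (sl : V → V → Fin D) (Dm : Finset (α × α))
    (S : Finset (α → V)) (X : Finset α) {B : ℝ} (hB : 0 ≤ B)
    (h : ∀ π : α × α → Option (Fin D),
      (((S.filter fun φ => xpat Ar sl Dm φ = π).image (proj X)).card : ℝ) ≤ B) :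
    ((S.image (proj X)).card : ℝ) ≤ ((D : ℝ) + 1) ^ Dm.card * B := by
  set Pats : Finset (α × α → Option (Fin D)) := S.image (xpat Ar sl Dm) with hPats
  have hcov : S.image (proj X) ⊆
      Pats.biUnion fun π => (S.filter fun φ => xpat Ar sl Dm φ = π).image (proj X) := by
    intro y hy
    obtain ⟨φ, hφ, rfl⟩ := Finset.mem_image.1 hy
    refine Finset.mem_biUnion.2 ⟨xpat Ar sl Dm φ, Finset.mem_image_of_mem _ hφ, ?_⟩
    exact Finset.mem_image_of_mem _ (Finset.mem_filter.2 ⟨hφ, rfl⟩)
  have hPcard : (Pats.card : ℝ) ≤ ((D : ℝ) + 1) ^ Dm.card := by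
    have hinj : Set.InjOn (fun (π : α × α → Option (Fin D)) (d : ↥Dm) => π d.1) (Pats : Set _) := by
      intro π hπ π' hπ' heq
      obtain ⟨φ, _, rfl⟩ := Finset.mem_image.1 (Finset.mem_coe.1 hπ)
      obtain ⟨φ', _, rfl⟩ := Finset.mem_image.1 (Finset.mem_coe.1 hπ')
      funext d
      by_cases hd : d ∈ Dm
      · exact congrFun heq ⟨d, hd⟩
      · simp [xpat, hd]
    have hc := Finset.card_le_card_of_injOn
      (s := Pats) (t := (univ : Finset (↥Dm → Option (Fin D))))
      (fun (π : α × α → Option (Fin D)) (d : ↥Dm) => π d.1) (fun _ _ => mem_univ _) hinj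
    have hu : (univ : Finset (↥Dm → Option (Fin D))).card = (D + 1) ^ Dm.card := by
      rw [Finset.card_univ, Fintype.card_fun]
      simp
    rw [hu] at hc
    exact_mod_cast hc
  calc ((S.image (proj X)).card : ℝ)
      ≤ ((Pats.biUnion fun π => (S.filter fun φ => xpat Ar sl Dm φ = π).image (proj X)).card : ℝ) := by
        exact_mod_cast Finset.card_le_card hcov
    _ ≤ ∑ π ∈ Pats, (((S.filter fun φ => xpat Ar sl Dm φ = π).image (proj X)).card : ℝ) := by
        exact_mod_cast Finset.card_biUnion_le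
    _ ≤ ∑ _π ∈ Pats, B := Finset.sum_le_sum fun π _ => h π
    _ = (Pats.card : ℝ) * B := by rw [Finset.sum_const, nsmul_eq_mul]
    _ ≤ ((D : ℝ) + 1) ^ Dm.card * B := mul_le_mul_of_nonneg_right hPcard hB

end Vale.Agent.Lib.P064
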