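import Vale.Agent.Lib.P064X.XCount

/-!
The count for a fixed pattern over a known set `Y`; the first guess may have no anchor.
-/

open Finset

namespace Vale.Agent.Lib.P064

open scoped Classical

variable {α V : Type} [Fintype α] {D : ℕ} {Dg : α → α → Prop} {lab : α → α → Fin D}

/-- `R₀ = xclo Dg Y`. If `R₀` meets `P` or contains `P`: `xcount` with `R = R₀`, `ε = 0`. Otherwise
`P` has no entering arc; take `J ⊆ P` minimal (`exists_xminPre`), `z ∈ J`, partition `S` by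
`φ z ∈ Yc` (factor `|Yc|`, `ε = 1`), and `xcount` with `R = xclo Dg (insert z Y)`; `J ⊆ R` by
`xminPre_reach`, so `|P \ R| + μ ≤ |P|`. Take the value `y` with the largest bound. -/
theorem xcomp_pi (hD : 1 ≤ D) (succ : V → Fin D → V) {Y P : Finset α} {μ : ℝ}
    {S : Finset (α → V)} {Yc : Finset V} {m : ℝ} (hm0 : 0 ≤ m) (hμ : 0 < μ)
    (hfol : ∀ φ ∈ S, ∀ u v, Dg u v → φ v = succ (φ u) (lab u v))
    (hinj : ∀ φ ∈ S, Function.Injective φ)
    (hagree : ∀ φ ∈ S, ∀ φ' ∈ S, ∀ y ∈ Y, φ y = φ' y)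
    (hYc : ∀ φ ∈ S, ∀ p ∈ P, φ p ∈ Yc)
    (hsupp : ∀ u v, Dg u v → (u ∈ P ∨ u ∈ Y) ∧ (v ∈ P ∨ v ∈ Y))
    (hne : P.Nonempty)
    (hconn : ∀ D' ⊆ P, D'.Nonempty → D' ≠ P → ∃ u ∈ D', ∃ v ∈ P \ D', Dg u v ∨ Dg v u)
    (hpre : ∀ J ⊆ P, XMinPre Dg J → μ ≤ (J.card : ℝ))
    (hindeg : ∀ a ∈ P, ((univ.filter fun b => Dg b a).card : ℝ) ≤ m) :
    ∃ ε T : ℕ, ε ≤ 1 ∧ ((ε + T : ℕ) : ℝ) * μ ≤ (P.card : ℝ) ∧
      ((S.image (proj (Y ∪ P))).card : ℝ) ≤
        (Yc.card : ℝ) ^ ε * (2 * (D : ℝ)) ^ P.card * (((Yc.card : ℝ) * m) / T) ^ T := by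
  classical
  have hD' : (1 : ℝ) ≤ D := by exact_mod_cast hD
  have h2D : (1 : ℝ) ≤ 2 * (D : ℝ) := by linarith
  have hsdiff : ∀ R : Finset α, ((P \ R).card : ℝ) ≤ (P.card : ℝ) := by
    intro R
    exact_mod_cast Finset.card_le_card Finset.sdiff_subset
  set R₀ := xclo Dg Y with hR₀
  have hYR₀ : Y ⊆ R₀ := subset_xclo Dg Y
  by_cases hcase : (R₀ ∩ P).Nonempty ∨ P ⊆ R₀
  · obtain ⟨T, hT1, hT2⟩ := xcount (lab := lab) (X := Y ∪ P) (R := R₀) hD succ hm0 hfol hinj
      (fun φ hφ φ' hφ' => agree_xclo (hfol φ hφ) (hfol φ' hφ') (hagree φ hφ φ' hφ'))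
      hYc
      (by
        intro x hx
        rcases Finset.mem_union.1 hx with h | h
        · exact Finset.mem_union.2 (Or.inr (hYR₀ h))
        · exact Finset.mem_union.2 (Or.inl h))
      (xclo_outClosed Dg Y)
      (by
        intro u v huv
        obtain ⟨h1, h2⟩ := hsupp u v huv
        exact ⟨h1.imp_right fun h => hYR₀ h, h2.imp_right fun h => hYR₀ h⟩)
      hcase hconn hpre hindeg
    refine ⟨0, T, by omega, ?_, ?_⟩
    · have : ((0 + T : ℕ) : ℝ) = (T : ℝ) := by simp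
      rw [this]
      exact hT1.trans (hsdiff _)
    · refine hT2.trans ?_
      rw [pow_zero, one_mul]
      have hY : 0 ≤ (((Yc.card : ℝ) * m) / (T : ℝ)) ^ T := by positivity
      refine mul_le_mul_of_nonneg_right ?_ hY
      exact pow_le_pow_right₀ h2D (Finset.card_le_card Finset.sdiff_subset)
  · push Not at hcase
    obtain ⟨hempty, _⟩ := hcase
    have hPpre : XPreClosed Dg P := by
      intro u v hv huv
      rcases (hsupp u v huv).1 with h | h
      · exact h
      · exfalso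
        have hvR : v ∈ R₀ := xclo_outClosed Dg Y u (hYR₀ h) v huv
        exact (Finset.not_nonempty_iff_eq_empty.2 hempty) ⟨v, Finset.mem_inter.2 ⟨hvR, hv⟩⟩
    obtain ⟨J, hJP, hJ⟩ := exists_xminPre hne hPpre
    obtain ⟨z, hzJ⟩ := hJ.1
    have hzP : z ∈ P := hJP hzJ
    set R := xclo Dg (insert z Y) with hR
    have hsubR : insert z Y ⊆ R := subset_xclo Dg _
    have hzR : z ∈ R := hsubR (Finset.mem_insert_self _ _)
    have hYR : Y ⊆ R := fun x hx => hsubR (Finset.mem_insert_of_mem hx)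
    have hJR : J ⊆ R := by
      intro u hu
      exact Finset.mem_filter.2 ⟨mem_univ _, z, Finset.mem_insert_self _ _, xminPre_reach hJ hzJ hu⟩
    have hsd : ((P \ R).card : ℝ) + μ ≤ (P.card : ℝ) := by
      have h1 : P \ R ⊆ P \ J := Finset.sdiff_subset_sdiff (Finset.Subset.refl _) hJR
      have h2 : (P \ R).card + J.card ≤ P.card := by
        have h3 := Finset.card_le_card h1
        have h4 := Finset.card_sdiff_add_card_eq_card hJP
        omega
      have h5 := hpre J hJP hJ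
      have h6 : ((P \ R).card : ℝ) + (J.card : ℝ) ≤ (P.card : ℝ) := by exact_mod_cast h2
      linarith
    by_cases hYcne : Yc.Nonempty
    · -- each value of `φ z`
      have hy : ∀ y ∈ Yc, ∃ T : ℕ, (T : ℝ) * μ ≤ ((P \ R).card : ℝ) ∧
          (((S.filter fun φ => φ z = y).image (proj (Y ∪ P))).card : ℝ) ≤
            (2 * (D : ℝ)) ^ (P \ R).card * (((Yc.card : ℝ) * m) / T) ^ T := by
        intro y _
        refine xcount (lab := lab) (X := Y ∪ P) (R := R) hD succ hm0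
          (fun φ hφ => hfol φ (Finset.mem_filter.1 hφ).1)
          (fun φ hφ => hinj φ (Finset.mem_filter.1 hφ).1)
          ?_
          (fun φ hφ => hYc φ (Finset.mem_filter.1 hφ).1)
          ?_
          (xclo_outClosed Dg _)
          ?_
          (Or.inl ⟨z, Finset.mem_inter.2 ⟨hzR, hzP⟩⟩)
          hconn hpre hindeg
        · intro φ hφ φ' hφ'
          obtain ⟨h1, h2⟩ := Finset.mem_filter.1 hφ
          obtain ⟨h3, h4⟩ := Finset.mem_filter.1 hφ'
          refine agree_xclo (hfol φ h1) (hfol φ' h3) ?_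
          intro x hx
          rcases Finset.mem_insert.1 hx with rfl | hx
          · rw [h2, h4]
          · exact hagree φ h1 φ' h3 x hx
        · intro x hx
          rcases Finset.mem_union.1 hx with h | h
          · exact Finset.mem_union.2 (Or.inr (hYR h))
          · exact Finset.mem_union.2 (Or.inl h)
        · intro u v huv
          obtain ⟨h1, h2⟩ := hsupp u v huv
          exact ⟨h1.imp_right fun h => hYR h, h2.imp_right fun h => hYR h⟩
      choose! Tf hT1 hT2 using hy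
      obtain ⟨y₀, hy₀, hmax⟩ := Finset.exists_max_image Yc
        (fun y => (((Yc.card : ℝ) * m) / (Tf y : ℝ)) ^ Tf y) hYcne
      refine ⟨1, Tf y₀, le_refl _, ?_, ?_⟩
      · have h1 := hT1 y₀ hy₀
        push_cast
        nlinarith
      · have hsub : S.image (proj (Y ∪ P)) ⊆
            Yc.biUnion fun y => (S.filter fun φ => φ z = y).image (proj (Y ∪ P)) := by
          intro f hf
          obtain ⟨φ, hφ, rfl⟩ := Finset.mem_image.1 hf
          exact Finset.mem_biUnion.2 ⟨φ z, hYc φ hφ z hzP,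
            Finset.mem_image_of_mem _ (Finset.mem_filter.2 ⟨hφ, rfl⟩)⟩
        have h1 : ((S.image (proj (Y ∪ P))).card : ℝ) ≤
            ∑ y ∈ Yc, (((S.filter fun φ => φ z = y).image (proj (Y ∪ P))).card : ℝ) := by
          have := (Finset.card_le_card hsub).trans Finset.card_biUnion_le
          exact_mod_cast this
        have hnn : 0 ≤ (((Yc.card : ℝ) * m) / (Tf y₀ : ℝ)) ^ Tf y₀ := by positivity
        have h2 : ∀ y ∈ Yc, (((S.filter fun φ => φ z = y).image (proj (Y ∪ P))).card : ℝ) ≤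
            (2 * (D : ℝ)) ^ P.card * (((Yc.card : ℝ) * m) / (Tf y₀ : ℝ)) ^ Tf y₀ := by
          intro y hy
          refine (hT2 y hy).trans ?_
          have h3 := hmax y hy
          have h4 : (2 * (D : ℝ)) ^ (P \ R).card ≤ (2 * (D : ℝ)) ^ P.card :=
            pow_le_pow_right₀ h2D (Finset.card_le_card Finset.sdiff_subset)
          have h5 : 0 ≤ (2 * (D : ℝ)) ^ (P \ R).card := by positivity
          calc (2 * (D : ℝ)) ^ (P \ R).card * (((Yc.card : ℝ) * m) / (Tf y : ℝ)) ^ Tf y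
              ≤ (2 * (D : ℝ)) ^ (P \ R).card * (((Yc.card : ℝ) * m) / (Tf y₀ : ℝ)) ^ Tf y₀ :=
                mul_le_mul_of_nonneg_left h3 h5
            _ ≤ _ := mul_le_mul_of_nonneg_right h4 hnn
        refine h1.trans ((Finset.sum_le_sum h2).trans ?_)
        rw [Finset.sum_const, nsmul_eq_mul, pow_one, mul_assoc]
    · have hS : S = ∅ := by
        rw [Finset.eq_empty_iff_forall_notMem]
        intro φ hφ
        exact hYcne ⟨_, hYc φ hφ z hzP⟩
      refine ⟨0, 0, by omega, ?_, ?_⟩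
      · simp
      · rw [hS]
        simp only [Finset.image_empty, Finset.card_empty, Nat.cast_zero, pow_zero, one_mul, mul_one]
        positivity

/-- The numerics of one fixed pattern. -/
theorem xcomp_num {Y₀ e L θ μ p₀ : ℝ} {D' : ℝ} {ε T : ℕ} {p : ℕ} (hY0 : 0 ≤ Y₀) (hY : Y₀ ≤ e * L)
    (he : 0 ≤ e) (hL : 1 ≤ L) (hθ : 1 ≤ θ) (hμ : 0 < μ) (hε : ε ≤ 1)
    (hT : ((ε + T : ℕ) : ℝ) * μ ≤ p₀) (hD' : 0 ≤ D') :
    Y₀ ^ ε * D' ^ p * ((Y₀ * θ) / T) ^ T ≤
      D' ^ p * Real.exp (2 * e) * Real.exp (p₀ * Real.log (L * θ) / μ) := by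
  have hLθ : 1 ≤ L * θ := by nlinarith
  have hLθ0 : 0 < L * θ := by linarith
  have h1 : Y₀ ^ ε ≤ (e * L) ^ ε := pow_le_pow_left₀ hY0 hY ε
  have hθ0 : 0 ≤ θ := by linarith
  have hT0 : (0 : ℝ) ≤ (T : ℝ) := Nat.cast_nonneg _
  have h2 : ((Y₀ * θ) / T) ^ T ≤ ((e * L * θ) / T) ^ T := by
    refine pow_le_pow_left₀ (by positivity) ?_ T
    refine div_le_div_of_nonneg_right ?_ hT0
    exact mul_le_mul_of_nonneg_right hY hθ0
  have h3 : (e * L) ^ ε ≤ Real.exp e * (L * θ) ^ ε := by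
    interval_cases ε
    · simpa using Real.one_le_exp he
    · simp only [pow_one]
      have h4 : e ≤ Real.exp e := by linarith [Real.add_one_le_exp e]
      have h5 : L ≤ L * θ := by nlinarith
      have h6 : 0 ≤ L := by linarith
      exact mul_le_mul h4 h5 h6 (Real.exp_pos e).le
  have h4 : ((e * L * θ) / T) ^ T = (e / T) ^ T * (L * θ) ^ T := by
    rw [← mul_pow]
    congr 1
    ring
  have h5 : (e / T) ^ T ≤ Real.exp e := x_pow_div_le_exp he T
  have hlog : 0 ≤ Real.log (L * θ) := Real.log_nonneg hLθ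
  have h6 : (L * θ) ^ (ε + T) ≤ Real.exp (p₀ * Real.log (L * θ) / μ) := by
    calc (L * θ) ^ (ε + T) = (Real.exp (Real.log (L * θ))) ^ (ε + T) := by
          rw [Real.exp_log hLθ0]
      _ = Real.exp (((ε + T : ℕ) : ℝ) * Real.log (L * θ)) := (Real.exp_nat_mul _ _).symm
      _ ≤ Real.exp (p₀ * Real.log (L * θ) / μ) := by
          refine Real.exp_le_exp.2 ?_
          rw [le_div_iff₀ hμ]
          nlinarith
  have h7 : Y₀ ^ ε * ((Y₀ * θ) / T) ^ T ≤
      Real.exp (2 * e) * (L * θ) ^ (ε + T) := by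
    have hA : 0 ≤ ((e * L * θ) / T) ^ T := by
      have : 0 ≤ L := by linarith
      positivity
    have hB : 0 ≤ Real.exp e * (L * θ) ^ ε := by positivity
    have hC : (0 : ℝ) ≤ (L * θ) ^ T := by positivity
    calc Y₀ ^ ε * ((Y₀ * θ) / T) ^ T ≤ (Real.exp e * (L * θ) ^ ε) * ((e * L * θ) / T) ^ T :=
          mul_le_mul (h1.trans h3) h2 (by positivity) hB
      _ = (Real.exp e * (L * θ) ^ ε) * ((e / T) ^ T * (L * θ) ^ T) := by rw [h4]
      _ ≤ (Real.exp e * (L * θ) ^ ε) * (Real.exp e * (L * θ) ^ T) :=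
          mul_le_mul_of_nonneg_left (mul_le_mul_of_nonneg_right h5 hC) hB
      _ = Real.exp (2 * e) * (L * θ) ^ (ε + T) := by
          rw [pow_add, two_mul, Real.exp_add]
          ring
  have hDp : 0 ≤ D' ^ p := by positivity
  calc Y₀ ^ ε * D' ^ p * ((Y₀ * θ) / T) ^ T
      = D' ^ p * (Y₀ ^ ε * ((Y₀ * θ) / T) ^ T) := by ring
    _ ≤ D' ^ p * (Real.exp (2 * e) * (L * θ) ^ (ε + T)) :=
        mul_le_mul_of_nonneg_left h7 hDp
    _ ≤ D' ^ p * (Real.exp (2 * e) * Real.exp (p₀ * Real.log (L * θ) / μ)) :=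
        mul_le_mul_of_nonneg_left
          (mul_le_mul_of_nonneg_left h6 (Real.exp_pos _).le) hDp
    _ = _ := by ring

end Vale.Agent.Lib.P064
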