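import Vale.Agent.Lib.P064X.Comp

/-!
The count over a low set, not necessarily connected.
-/

open Finset

namespace Vale.Agent.Lib.P064

open scoped Classical

open Vale.Agent.Lib.P064N

variable {V α : Type} [Fintype V] [Fintype α] {H : SimpleGraph V} {F : SimpleGraph α} {n : ℕ}
  {q : ℝ}

lemma one_le_xCc {D' : ℕ} (hD1 : 1 ≤ D') : 1 ≤ xCc D' := by
  unfold xCc
  have hD : (1 : ℝ) ≤ (D' : ℝ) := by exact_mod_cast hD1
  have h1 : (1 : ℝ) ≤ ((D' : ℝ) + 1) ^ 2 := by nlinarith
  have h2 : (1 : ℝ) ≤ 2 * (D' : ℝ) := by linarith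
  have h3 : (1 : ℝ) ≤ Real.exp 2 := Real.one_le_exp (by norm_num)
  have h4 : (1 : ℝ) ≤ ((D' : ℝ) + 1) ^ 2 * (2 * (D' : ℝ)) := by nlinarith
  nlinarith

/-- Membership in the edges of `F[W]` touching `J`. -/
lemma xc_mem_touch {W J : Finset α} (hJ : J ⊆ W) {u v : α} :
    s(u, v) ∈ newE F (W \ J) J ↔ F.Adj u v ∧ u ∈ W ∧ v ∈ W ∧ (u ∈ J ∨ v ∈ J) := by
  rw [mem_newE_pair]
  simp only [Finset.mem_sdiff]
  constructor
  · rintro ⟨h1, h2, h3, h4⟩
    refine ⟨h1, ?_, ?_, ?_⟩
    · rcases h2 with h | h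
      · exact h.1
      · exact hJ h
    · rcases h3 with h | h
      · exact h.1
      · exact hJ h
    · by_contra hcon
      push Not at hcon
      apply h4
      constructor
      · rcases h2 with h | h
        · exact h
        · exact absurd h hcon.1
      · rcases h3 with h | h
        · exact h
        · exact absurd h hcon.2
  · rintro ⟨h1, h2, h3, h4⟩
    refine ⟨h1, ?_, ?_, ?_⟩
    · by_cases hu : u ∈ J
      · exact Or.inr hu
      · exact Or.inl ⟨h2, hu⟩
    · by_cases hv : v ∈ J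
      · exact Or.inr hv
      · exact Or.inl ⟨h3, hv⟩
    · rintro ⟨⟨_, hu⟩, ⟨_, hv⟩⟩
      rcases h4 with h | h
      · exact hu h
      · exact hv h

/-- Shrinking the ambient set does not change `eT` if no edge from `J` leaves the smaller set. -/
lemma xc_eT_transfer {W W' J : Finset α} (hsub : W' ⊆ W) (hJ : J ⊆ W')
    (hno : ∀ u ∈ J, ∀ v ∈ W, F.Adj u v → v ∈ W') : eT F W' J = eT F W J := by
  unfold eT
  congr 1
  ext e
  induction e using Sym2.ind with
  | _ u v =>
    rw [xc_mem_touch hJ, xc_mem_touch (hJ.trans hsub)]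
    constructor
    · rintro ⟨h1, h2, h3, h4⟩
      exact ⟨h1, hsub h2, hsub h3, h4⟩
    · rintro ⟨h1, h2, h3, h4⟩
      refine ⟨h1, ?_, ?_, h4⟩
      · rcases h4 with h | h
        · exact hJ h
        · exact hno v h u h2 h1.symm
      · rcases h4 with h | h
        · exact hno u h v h3 h1
        · exact hJ h

/-- The base case: at most one restriction to `Y`. -/
lemma xc_empty {Y : Finset α} {S : Finset (α → V)} {φ₀ : α → V}
    (hagree : ∀ φ ∈ S, ∀ y ∈ Y, φ y = φ₀ y) (C L : ℝ) (μ : ℝ) :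
    ((S.image (proj (Y ∪ ∅))).card : ℝ) ≤
      C ^ (newE F Y ∅).card * Real.exp (((∅ : Finset α).card : ℝ) * L / μ) := by
  have h1 : (S.image (proj (Y ∪ ∅))).card ≤ 1 := by
    rw [Finset.card_le_one]
    intro a ha b hb
    obtain ⟨φ, hφ, rfl⟩ := Finset.mem_image.1 ha
    obtain ⟨φ', hφ', rfl⟩ := Finset.mem_image.1 hb
    funext x
    unfold proj
    by_cases hx : x ∈ Y
    · have hx' : x ∈ Y ∪ ∅ := by simpa using hx
      simp only [hx', if_true]
      rw [hagree φ hφ x hx, hagree φ' hφ' x hx]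
    · have hx' : x ∉ Y ∪ ∅ := by simpa using hx
      simp only [hx', if_false]
  have h2 : (newE F Y ∅).card = 0 := by
    rw [Finset.card_eq_zero]
    unfold newE
    simp
  rw [h2]
  have h3 : ((S.image (proj (Y ∪ ∅))).card : ℝ) ≤ 1 := by exact_mod_cast h1
  simpa using h3

/-- The split of the new edges. -/
lemma xc_newE_split {Y P J₂ : Finset α}
    (hP : Disjoint P Y) (hdisj : Disjoint P J₂)
    (hno : ∀ u ∈ P, ∀ v ∈ J₂, ¬ F.Adj u v) :
    (newE F Y (P ∪ J₂)).card = (newE F Y P).card + (newE F Y J₂).card := by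
  have hd : Disjoint (newE F Y P) (newE F Y J₂) := by
    rw [Finset.disjoint_left]
    intro e
    induction e using Sym2.ind with
    | _ u v =>
      intro h1 h2
      obtain ⟨_, a1, a2, a3⟩ := mem_newE_pair.1 h1
      obtain ⟨_, b1, b2, b3⟩ := mem_newE_pair.1 h2
      by_cases hu : u ∈ Y
      · have hv : v ∉ Y := fun hv => a3 ⟨hu, hv⟩
        exact (Finset.disjoint_left.1 hdisj) (a2.resolve_left hv) (b2.resolve_left hv)
      · exact (Finset.disjoint_left.1 hdisj) (a1.resolve_left hu) (b1.resolve_left hu)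
  rw [← Finset.card_union_of_disjoint hd]
  congr 1
  ext e
  induction e using Sym2.ind with
  | _ u v =>
    rw [Finset.mem_union, mem_newE_pair, mem_newE_pair, mem_newE_pair]
    simp only [Finset.mem_union]
    constructor
    · rintro ⟨h1, h2, h3, h4⟩
      by_cases hu : u ∈ Y
      · have hv : v ∉ Y := fun hv => h4 ⟨hu, hv⟩
        rcases h3 with h3 | h3 | h3
        · exact absurd h3 hv
        · exact Or.inl ⟨h1, Or.inl hu, Or.inr h3, h4⟩
        · exact Or.inr ⟨h1, Or.inl hu, Or.inr h3, h4⟩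
      · rcases h2 with h2 | h2 | h2
        · exact absurd h2 hu
        · refine Or.inl ⟨h1, Or.inr h2, ?_, h4⟩
          rcases h3 with h3 | h3 | h3
          · exact Or.inl h3
          · exact Or.inr h3
          · exact absurd h1 (hno u h2 v h3)
        · refine Or.inr ⟨h1, Or.inr h2, ?_, h4⟩
          rcases h3 with h3 | h3 | h3
          · exact Or.inl h3
          · exact absurd h1.symm (hno v h3 u h2)
          · exact Or.inr h3
    · rintro (⟨h1, h2, h3, h4⟩ | ⟨h1, h2, h3, h4⟩)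
      · refine ⟨h1, ?_, ?_, h4⟩
        · tauto
        · tauto
      · refine ⟨h1, ?_, ?_, h4⟩
        · tauto
        · tauto

/-- The product bound for the projections. -/
lemma xc_card_prod {Y P J₂ : Finset α} (S : Finset (α → V)) :
    (S.image (proj (Y ∪ (P ∪ J₂)))).card ≤
      (S.image (proj (Y ∪ J₂))).card * (S.image (proj (Y ∪ P))).card := by
  rw [← Finset.card_product]
  have hsub1 : Y ∪ J₂ ⊆ Y ∪ (P ∪ J₂) := by
    intro x hx
    simp only [Finset.mem_union] at hx ⊢
    tauto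
  have hsub2 : Y ∪ P ⊆ Y ∪ (P ∪ J₂) := by
    intro x hx
    simp only [Finset.mem_union] at hx ⊢
    tauto
  refine Finset.card_le_card_of_injOn (fun f => (res (Y ∪ J₂) f, res (Y ∪ P) f)) ?_ ?_
  · intro f hf
    obtain ⟨φ, hφ, rfl⟩ := Finset.mem_image.1 (Finset.mem_coe.1 hf)
    refine Finset.mem_coe.2 (Finset.mem_product.2 ⟨?_, ?_⟩)
    · simp only [res_proj hsub1]
      exact Finset.mem_image_of_mem _ hφ
    · simp only [res_proj hsub2]
      exact Finset.mem_image_of_mem _ hφ
  · intro f hf g hg hfg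
    obtain ⟨φ, hφ, rfl⟩ := Finset.mem_image.1 (Finset.mem_coe.1 hf)
    obtain ⟨φ', hφ', rfl⟩ := Finset.mem_image.1 (Finset.mem_coe.1 hg)
    simp only [res_proj hsub1, res_proj hsub2, Prod.mk.injEq] at hfg
    obtain ⟨h1, h2⟩ := hfg
    funext x
    by_cases hx : x ∈ Y ∪ (P ∪ J₂)
    · by_cases hx1 : x ∈ Y ∪ J₂
      · have := congrFun h1 x
        unfold proj at this ⊢
        simpa only [hx, hx1, if_true] using this
      · have hx2 : x ∈ Y ∪ P := by
          simp only [Finset.mem_union] at hx hx1 ⊢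
          tauto
        have := congrFun h2 x
        unfold proj at this ⊢
        simpa only [hx, hx2, if_true] using this
    · unfold proj
      simp only [hx, if_false]

/-- A minimal nonempty piece with no edge to the rest. -/
lemma xc_exists_piece {J : Finset α} (hne : J.Nonempty) :
    ∃ P ⊆ J, P.Nonempty ∧ (∀ u ∈ P, ∀ v ∈ J \ P, ¬ F.Adj u v) ∧
      (∀ D ⊆ P, D.Nonempty → D ≠ P → ∃ u ∈ D, ∃ v ∈ P \ D, F.Adj u v) := by
  classical
  let 𝒞 : Finset (Finset α) :=
    J.powerset.filter (fun P => P.Nonempty ∧ ∀ u ∈ P, ∀ v ∈ J \ P, ¬ F.Adj u v)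
  have hJ𝒞 : J ∈ 𝒞 := by
    refine Finset.mem_filter.2 ⟨Finset.mem_powerset.2 (Finset.Subset.refl _), hne, ?_⟩
    intro u _ v hv
    simp at hv
  obtain ⟨P, hP𝒞, hmin⟩ := Finset.exists_min_image 𝒞 Finset.card ⟨J, hJ𝒞⟩
  obtain ⟨hPJ, hPne, hPno⟩ := Finset.mem_filter.1 hP𝒞
  refine ⟨P, Finset.mem_powerset.1 hPJ, hPne, hPno, ?_⟩
  intro D hD hDne hDP
  by_contra hcon
  push Not at hcon
  have hD𝒞 : D ∈ 𝒞 := by
    refine Finset.mem_filter.2 ⟨Finset.mem_powerset.2 (hD.trans (Finset.mem_powerset.1 hPJ)),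
      hDne, ?_⟩
    intro u hu v hv
    obtain ⟨hvJ, hvD⟩ := Finset.mem_sdiff.1 hv
    by_cases hvP : v ∈ P
    · exact hcon u hu v (Finset.mem_sdiff.2 ⟨hvP, hvD⟩)
    · exact hPno u (hD hu) v (Finset.mem_sdiff.2 ⟨hvJ, hvP⟩)
  have h1 := hmin D hD𝒞
  have h2 : D.card < P.card := Finset.card_lt_card (hD.ssubset_of_ne hDP)
  omega

/-- Induction on `|J|`. `J` empty: at most one restriction. Else take `P ⊆ J` nonempty minimal with no
edge of `F` between `P` and `J \ P`: it is connected. `J₂ = J \ P`. The map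
`proj (Y ∪ J) φ ↦ (proj (Y ∪ J₂) φ, proj (Y ∪ P) φ)` is injective, so the count is at most the
product. `eT F (Y ∪ P) J' = eT F (Y ∪ J) J'` for `J' ⊆ P` and likewise for `J₂`, `dW` too: no edges
between `P` and `J₂`. `newE F Y J` is the disjoint union of `newE F Y P`, `newE F Y J₂`. -/
theorem xcomps_count (hG : GoodDensity n q H) (hn : 1 ≤ n) (hq0 : 0 < q) (hqe : q ≤ Real.exp (-1))
    (hD : 1 ≤ (n : ℝ) * q) (hL : 1 ≤ Real.log n)
    {w : V → V → ℕ} {M c T : ℕ} (hw : ∀ a b, H.Adj a b → w a b + w b a = M)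
    (hs : ∀ a, ∑ b, w a b ≤ c) (hT : 1 ≤ T) (h2T : 2 * T ≤ M)
    {D' : ℕ} (hD1 : 1 ≤ D') (hD2 : c / T ≤ D')
    {μ : ℝ} (hμ : 0 < μ) (hμ2 : ∀ j : ℕ, M + M * j ≤ 2 * T + c * j → μ ≤ (j : ℝ))
    {θ : ℝ} (hθ : 1 ≤ θ) (k : ℕ) :
    ∀ (Y J : Finset α), J.card ≤ k → Disjoint J Y →
    (∀ J' ⊆ J, J'.Nonempty → Low n q F (Y ∪ J) J') →
    (∀ v ∈ J, (dW F (Y ∪ J) v : ℝ) ≤ θ) →
    ∀ (S : Finset (α → V)), (∀ φ ∈ S, Function.Injective φ) →
    (∀ φ ∈ S, ∀ u v, F.Adj u v → H.Adj (φ u) (φ v)) →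
    ∀ (φ₀ : α → V), (∀ φ ∈ S, ∀ y ∈ Y, φ y = φ₀ y) →
    ((S.image (proj (Y ∪ J))).card : ℝ) ≤
      xCc D' ^ (newE F Y J).card * Real.exp ((J.card : ℝ) * Real.log (Real.log n * θ) / μ) := by
  induction k with
  | zero =>
    intro Y J hk _ _ _ S _ _ φ₀ hagree
    have hJ : J = ∅ := Finset.card_eq_zero.1 (Nat.le_zero.1 hk)
    subst hJ
    exact xc_empty hagree _ _ _
  | succ k ih =>
    intro Y J hk hdisj hlow hdeg S hinj hhom φ₀ hagree
    by_cases hJ : J = ∅
    · subst hJ
      exact xc_empty hagree _ _ _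
    obtain ⟨P, hPJ, hPne, hPno, hconn⟩ := xc_exists_piece (F := F) (Finset.nonempty_iff_ne_empty.2 hJ)
    set J₂ := J \ P with hJ₂
    have hJeq : J = P ∪ J₂ := by
      rw [hJ₂, Finset.union_sdiff_of_subset hPJ]
    have hJ₂J : J₂ ⊆ J := Finset.sdiff_subset
    have hdPJ₂ : Disjoint P J₂ := Finset.disjoint_sdiff
    have hdP : Disjoint P Y := Finset.disjoint_of_subset_left hPJ hdisj
    have hdJ₂ : Disjoint J₂ Y := Finset.disjoint_of_subset_left hJ₂J hdisj
    have hcardJ : J.card = P.card + J₂.card := by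
      rw [hJeq, Finset.card_union_of_disjoint hdPJ₂]
    have hPpos : 1 ≤ P.card := Finset.card_pos.2 hPne
    have hJ₂card : J₂.card ≤ k := by omega
    -- transfer
    have hsubP : Y ∪ P ⊆ Y ∪ J := Finset.union_subset_union_right hPJ
    have hsubJ₂ : Y ∪ J₂ ⊆ Y ∪ J := Finset.union_subset_union_right hJ₂J
    have htrP : ∀ J' ⊆ P, eT F (Y ∪ P) J' = eT F (Y ∪ J) J' := by
      intro J' hJ'
      refine xc_eT_transfer hsubP (hJ'.trans Finset.subset_union_right) ?_
      intro u hu v hv huv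
      rcases Finset.mem_union.1 hv with hv | hv
      · exact Finset.mem_union_left _ hv
      · by_cases hvP : v ∈ P
        · exact Finset.mem_union_right _ hvP
        · exact absurd huv (hPno u (hJ' hu) v (Finset.mem_sdiff.2 ⟨hv, hvP⟩))
    have htrJ₂ : ∀ J' ⊆ J₂, eT F (Y ∪ J₂) J' = eT F (Y ∪ J) J' := by
      intro J' hJ'
      refine xc_eT_transfer hsubJ₂ (hJ'.trans Finset.subset_union_right) ?_
      intro u hu v hv huv
      rcases Finset.mem_union.1 hv with hv | hv
      · exact Finset.mem_union_left _ hv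
      · by_cases hvP : v ∈ P
        · exact absurd huv.symm (hPno v hvP u (hJ' hu))
        · exact Finset.mem_union_right _ (Finset.mem_sdiff.2 ⟨hv, hvP⟩)
    -- the two bounds
    have hb2 := ih Y J₂ hJ₂card hdJ₂
      (by
        intro J' hJ' hJ'ne
        have := hlow J' (hJ'.trans hJ₂J) hJ'ne
        unfold Low at this ⊢
        rw [htrJ₂ J' hJ']
        exact this)
      (by
        intro v hv
        have := hdeg v (hJ₂J hv)
        unfold dW at this ⊢
        rw [htrJ₂ {v} (Finset.singleton_subset_iff.2 hv)]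
        exact this)
      S hinj hhom φ₀ hagree
    have hb1 := xcomp_count hG hn hq0 hqe hD hL hw hs hT h2T hD1 hD2 hμ hμ2 hθ hdP hPne hconn
      (by
        intro J' hJ' hJ'ne
        have := hlow J' (hJ'.trans hPJ) hJ'ne
        unfold Low at this ⊢
        rw [htrP J' hJ']
        exact this)
      (by
        intro v hv
        have := hdeg v (hPJ hv)
        unfold dW at this ⊢
        rw [htrP {v} (Finset.singleton_subset_iff.2 hv)]
        exact this)
      hinj hhom hagree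
    -- the product
    have hprod : ((S.image (proj (Y ∪ J))).card : ℝ) ≤
        ((S.image (proj (Y ∪ J₂))).card : ℝ) * ((S.image (proj (Y ∪ P))).card : ℝ) := by
      have := xc_card_prod (Y := Y) (P := P) (J₂ := J₂) S
      rw [← hJeq] at this
      exact_mod_cast this
    have hsplit : (newE F Y J).card = (newE F Y P).card + (newE F Y J₂).card := by
      have := xc_newE_split (F := F) hdP hdPJ₂
        (fun u hu v hv => hPno u hu v hv)
      rwa [← hJeq] at this
    have hC0 : 0 ≤ xCc D' := le_trans zero_le_one (one_le_xCc hD1)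
    calc ((S.image (proj (Y ∪ J))).card : ℝ)
        ≤ ((S.image (proj (Y ∪ J₂))).card : ℝ) * ((S.image (proj (Y ∪ P))).card : ℝ) := hprod
      _ ≤ (xCc D' ^ (newE F Y J₂).card * Real.exp ((J₂.card : ℝ) * Real.log (Real.log n * θ) / μ))
          * (xCc D' ^ (newE F Y P).card * Real.exp ((P.card : ℝ) * Real.log (Real.log n * θ) / μ)) :=
          mul_le_mul hb2 hb1 (Nat.cast_nonneg _) (by positivity)
      _ = xCc D' ^ (newE F Y J).card * Real.exp ((J.card : ℝ) * Real.log (Real.log n * θ) / μ) := by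
          rw [hsplit, hcardJ, pow_add]
          have hexp : Real.exp (((P.card + J₂.card : ℕ) : ℝ) * Real.log (Real.log n * θ) / μ) =
              Real.exp ((P.card : ℝ) * Real.log (Real.log n * θ) / μ) *
              Real.exp ((J₂.card : ℝ) * Real.log (Real.log n * θ) / μ) := by
            rw [← Real.exp_add]
            congr 1
            push_cast
            ring
          rw [hexp]
          ring

end Vale.Agent.Lib.P064
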