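import Vale.Agent.Lib.P064X.Comp
import Vale.Agent.Lib.P064S.Num
import Vale.Agent.Lib.P064N.Emb

/-!
The parameters and the numerics.
-/

open Finset

namespace Vale.Agent.Lib.P064

/-- The exponent per edge. -/
noncomputable def xKap (n : ℕ) (q : ℝ) : ℝ :=
  (16 / 5) * (Real.log ((n : ℝ) * q) + 1) * Real.log (Real.log n) / (- Real.log q)

/-- The constant per edge. -/
noncomputable def xC : ℝ := Real.exp 40

/-- The loss per edge. -/
noncomputable def xK (n : ℕ) (q : ℝ) : ℝ :=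
  xC * (Real.exp (xKap n q) + Real.log n / ((n : ℝ) * q))

/-- The loss per vertex. -/
noncomputable def xA : ℝ := Real.exp 8

/-- The scale of a set without entering arc. -/
noncomputable def xMu (n : ℕ) (q : ℝ) : ℝ :=
  (15 / 16) * (- Real.log q) / (Real.log ((n : ℝ) * q) + 1)

lemma one_le_xA : 1 ≤ xA := by
  unfold xA
  exact Real.one_le_exp (by norm_num)

/-- `xCc 192` is small, and the base of the pinned bound is at most `xC / e^4`. -/
lemma xCc_192 : Real.exp 2 * xCc 192 ≤ xC * Real.exp (-4) := by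
  have h1 : xC * Real.exp (-4) = Real.exp 2 * Real.exp 2 * Real.exp 32 := by
    unfold xC
    rw [← Real.exp_add, ← Real.exp_add, ← Real.exp_add]
    congr 1
    norm_num
  rw [h1]
  have h2 : (2 : ℝ) ≤ Real.exp 1 := by
    have := Real.add_one_le_exp (1 : ℝ)
    linarith
  have h3 : (2 : ℝ) ^ 32 ≤ Real.exp 32 := by
    have h4 : Real.exp 32 = Real.exp 1 ^ 32 := by
      rw [← Real.exp_nat_mul]
      norm_num
    rw [h4]
    exact pow_le_pow_left₀ (by norm_num) h2 32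
  have h5 : xCc 192 = (((192 : ℕ) : ℝ) + 1) ^ 2 * (2 * ((192 : ℕ) : ℝ)) * Real.exp 2 := rfl
  rw [h5]
  have h6 : (((192 : ℕ) : ℝ) + 1) ^ 2 * (2 * ((192 : ℕ) : ℝ)) ≤ Real.exp 32 := by
    refine le_trans ?_ h3
    norm_num
  have h7 : 0 < Real.exp 2 := Real.exp_pos _
  calc Real.exp 2 * ((((192 : ℕ) : ℝ) + 1) ^ 2 * (2 * ((192 : ℕ) : ℝ)) * Real.exp 2)
      = Real.exp 2 * Real.exp 2 * (((192 : ℕ) : ℝ) + 1) ^ 2 * (2 * ((192 : ℕ) : ℝ)) := by ring
    _ = Real.exp 2 * Real.exp 2 * ((((192 : ℕ) : ℝ) + 1) ^ 2 * (2 * ((192 : ℕ) : ℝ))) := by ring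
    _ ≤ Real.exp 2 * Real.exp 2 * Real.exp 32 := by
        exact mul_le_mul_of_nonneg_left h6 (by positivity)

/-- From `exists_weights` with `τ₀ = 1/64`. `T/M ≤ 1/32`, `(c/M) lam ≤ L + 1`, `c/T ≤ (L/lam+1) 64 ≤ 192`.
If `M + M j ≤ 2 T + c j` then `(c/M - 1) j ≥ 1 - 2T/M ≥ 15/16`, and `c/M - 1 ≤ (g+1)/lam`. -/
theorem x_params {V : Type} [Fintype V] {H : SimpleGraph V} {n : ℕ} {q : ℝ} (hn : 1 ≤ n) (hq0 : 0 < q)
    (hqe : q ≤ Real.exp (-1)) (hG : GoodDensity n q H) (hD : 1 ≤ (n : ℝ) * q)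
    (hQ : Real.log n / 2 ≤ - Real.log q) :
    ∃ (w : V → V → ℕ) (M c T : ℕ), (∀ a b, H.Adj a b → w a b + w b a = M) ∧
      (∀ a, ∑ b, w a b ≤ c) ∧ 1 ≤ T ∧ 2 * T ≤ M ∧ c / T ≤ 192 ∧
      (∀ j : ℕ, M + M * j ≤ 2 * T + c * j → xMu n q ≤ (j : ℝ)) := by
  obtain ⟨w, M, c, T, hM1, hT1, hw, hs, hTM, hcM, hcT⟩ :=
    Vale.Agent.Lib.P064N.exists_weights (H := H) hn hq0 hqe hG (τ₀ := 1 / 64) (by norm_num) (by norm_num)
  have hn1 : (1 : ℝ) ≤ n := by exact_mod_cast hn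
  have hn0 : (0 : ℝ) < n := by linarith
  have hL0 : 0 ≤ Real.log n := Real.log_nonneg hn1
  have hQ1 : 1 ≤ - Real.log q := by
    have := Real.log_le_log hq0 hqe
    rw [Real.log_exp] at this
    linarith
  have hQ0 : 0 < - Real.log q := by linarith
  have hMpos : (0 : ℝ) < M := by exact_mod_cast hM1
  have hg : Real.log ((n : ℝ) * q) = Real.log n + Real.log q :=
    Real.log_mul hn0.ne' hq0.ne'
  have hg0 : 0 ≤ Real.log ((n : ℝ) * q) := Real.log_nonneg hD
  have h32 : (32 : ℝ) * T ≤ M := by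
    rw [div_le_iff₀ hMpos] at hTM
    linarith
  refine ⟨w, M, c, T, hw, hs, hT1, ?_, ?_, ?_⟩
  · have : (2 : ℝ) * T ≤ M := by
      have : (0 : ℝ) ≤ T := Nat.cast_nonneg _
      linarith
    exact_mod_cast this
  · have h1 : Real.log n / (- Real.log q) ≤ 2 := by
      rw [div_le_iff₀ hQ0]
      linarith
    have h2 : (Real.log n / (- Real.log q) + 1) / (1 / 64) ≤ 192 := by
      rw [div_le_iff₀ (by norm_num)]
      linarith
    have h3 : ((c / T : ℕ) : ℝ) ≤ 192 := hcT.trans h2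
    exact_mod_cast h3
  · intro j hj
    have hj' : (M : ℝ) + M * j ≤ 2 * T + c * j := by exact_mod_cast hj
    have hj0 : (0 : ℝ) ≤ j := Nat.cast_nonneg _
    have hc1 : (c : ℝ) * (- Real.log q) ≤ (Real.log n + 1) * M := by
      rw [div_mul_eq_mul_div, div_le_iff₀ hMpos] at hcM
      exact hcM
    have hmain : (15 / 16) * (M : ℝ) * (- Real.log q) ≤
        (j : ℝ) * ((Real.log ((n : ℝ) * q) + 1) * M) := by
      have h4 : (15 / 16) * (M : ℝ) ≤ (c - M) * j := by nlinarith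
      have h5 : ((c : ℝ) - M) * (- Real.log q) ≤ (Real.log ((n : ℝ) * q) + 1) * M := by
        rw [hg]
        nlinarith
      calc (15 / 16) * (M : ℝ) * (- Real.log q) ≤ ((c - M) * j) * (- Real.log q) :=
            mul_le_mul_of_nonneg_right h4 hQ0.le
        _ = (j : ℝ) * (((c : ℝ) - M) * (- Real.log q)) := by ring
        _ ≤ _ := mul_le_mul_of_nonneg_left h5 hj0
    have hg1 : 0 < Real.log ((n : ℝ) * q) + 1 := by linarith
    unfold xMu
    rw [div_le_iff₀ hg1]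
    have h6 : (M : ℝ) * ((15 / 16) * (- Real.log q)) ≤ M * ((j : ℝ) * (Real.log ((n : ℝ) * q) + 1)) := by
      calc (M : ℝ) * ((15 / 16) * (- Real.log q)) = (15 / 16) * (M : ℝ) * (- Real.log q) := by ring
        _ ≤ _ := hmain
        _ = _ := by ring
    exact le_of_mul_le_mul_left h6 hMpos

/-- The pinned exponent against `xKap`: `log(L L)/xMu = (32/15) (g+1) log L / lam`. -/
theorem x_pinned_exp {n : ℕ} {q : ℝ} (hq0 : 0 < q) (hn : 1 ≤ n) (hD : 1 ≤ (n : ℝ) * q) (hL : 1 ≤ Real.log n)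
    (hQ : 1 ≤ - Real.log q) :
    Real.log (Real.log n * Real.log n) / xMu n q =
      (2 / 3) * xKap n q := by
  have hL0 : Real.log n ≠ 0 := by
    intro h
    rw [h] at hL
    norm_num at hL
  have hQ0 : - Real.log q ≠ 0 := by
    intro h
    rw [h] at hQ
    norm_num at hQ
  have hg0 : 0 ≤ Real.log ((n : ℝ) * q) := Real.log_nonneg hD
  have hg1 : Real.log ((n : ℝ) * q) + 1 ≠ 0 := by
    have : 0 < Real.log ((n : ℝ) * q) + 1 := by linarith
    exact this.ne'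
  rw [Real.log_mul hL0 hL0]
  unfold xMu xKap
  field_simp
  ring

end Vale.Agent.Lib.P064
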