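import Vale.Agent.Lib.P064X.Seq

/-!
Small numerics: arithmetic and geometric means on lists, word sums.
-/

open Finset

namespace Vale.Agent.Lib.P064

private theorem prod_le_pow_exp {ι : Type} (l : List ι) (f : ι → ℝ) (hf : ∀ i ∈ l, 0 ≤ f i)
    {a : ℝ} (ha : 0 < a) :
    (l.map f).prod ≤ a ^ l.length * Real.exp ((l.map f).sum / a - l.length) := by
  induction l with
  | nil => simp
  | cons x l ih =>
    have hx : 0 ≤ f x := hf x (by simp)
    have hrest : ∀ i ∈ l, 0 ≤ f i := fun i hi => hf i (List.mem_cons_of_mem _ hi)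
    have ih' := ih hrest
    have hprod : 0 ≤ (l.map f).prod := List.prod_nonneg (by
      intro y hy
      obtain ⟨i, hi, rfl⟩ := List.mem_map.1 hy
      exact hrest i hi)
    have h1 : f x ≤ a * Real.exp (f x / a - 1) := by
      have := Real.add_one_le_exp (f x / a - 1)
      have h2 : f x / a ≤ Real.exp (f x / a - 1) := by linarith
      calc f x = a * (f x / a) := by field_simp
        _ ≤ a * Real.exp (f x / a - 1) := mul_le_mul_of_nonneg_left h2 ha.le
    simp only [List.map_cons, List.prod_cons, List.sum_cons, List.length_cons]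
    calc f x * (l.map f).prod
        ≤ (a * Real.exp (f x / a - 1)) *
            (a ^ l.length * Real.exp ((l.map f).sum / a - l.length)) :=
          mul_le_mul h1 ih' hprod (by positivity)
      _ = a ^ (l.length + 1) * Real.exp ((f x + (l.map f).sum) / a - ((l.length + 1 : ℕ) : ℝ)) := by
          have : (f x + (l.map f).sum) / a - ((l.length + 1 : ℕ) : ℝ)
              = (f x / a - 1) + ((l.map f).sum / a - l.length) := by
            push_cast; ring
          rw [this, Real.exp_add]; ring

/-- Geometric and arithmetic means on a list. -/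
theorem x_amgm_list {ι : Type} (l : List ι) (f : ι → ℝ) (hf : ∀ i ∈ l, 0 ≤ f i) :
    (l.map f).prod ≤ ((l.map f).sum / l.length) ^ l.length := by
  cases hl : l with
  | nil => simp
  | cons x t =>
    subst hl
    have hlen : (0 : ℝ) < ((x :: t).length : ℝ) := by simp; positivity
    have hsum : 0 ≤ ((x :: t).map f).sum := List.sum_nonneg (by
      intro y hy
      obtain ⟨i, hi, rfl⟩ := List.mem_map.1 hy
      exact hf i hi)
    rcases hsum.eq_or_lt with h0 | hpos
    · -- all values vanish
      have hall : ∀ y ∈ (x :: t).map f, y = 0 := by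
        intro y hy
        have hnn : ∀ z ∈ (x :: t).map f, 0 ≤ z := by
          intro z hz
          obtain ⟨i, hi, rfl⟩ := List.mem_map.1 hz
          exact hf i hi
        have h1 := List.single_le_sum hnn y hy
        have h2 := hnn y hy
        linarith
      have hx0 : f x = 0 := hall _ (by simp)
      have hprod : ((x :: t).map f).prod = 0 := by
        simp [hx0]
      rw [hprod, ← h0]
      simp
    · have ha : 0 < ((x :: t).map f).sum / ((x :: t).length : ℝ) := div_pos hpos hlen
      have h := prod_le_pow_exp (x :: t) f hf ha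
      have he : ((x :: t).map f).sum / (((x :: t).map f).sum / ((x :: t).length : ℝ))
          - ((x :: t).length : ℝ) = 0 := by
        field_simp
        ring
      rw [he, Real.exp_zero, mul_one] at h
      exact h

/-- The Kraft sum of nonempty words. -/
theorem x_words_sum {D : ℕ} (hD : 1 ≤ D) (W : Finset (List (Fin D))) (hW : ∀ w ∈ W, w ≠ []) :
    ∑ w ∈ W, ((2 * (D : ℝ)) ^ w.length)⁻¹ ≤ 1 := by
  classical
  have hDpos : (0 : ℝ) < D := by exact_mod_cast hD
  -- bound the number of words of each length
  have hcount : ∀ k : ℕ, ((W.filter fun w => w.length = k).card : ℝ) ≤ (D : ℝ) ^ k := by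
    intro k
    have hinj : (W.filter fun w => w.length = k).card ≤ Fintype.card (List.Vector (Fin D) k) := by
      have : (W.filter fun w => w.length = k).card
          = ((W.filter fun w => w.length = k).attach).card := (Finset.card_attach).symm
      rw [this]
      refine Finset.card_le_card_of_injOn
        (fun w => (⟨w.1, (Finset.mem_filter.1 w.2).2⟩ : List.Vector (Fin D) k))
        (fun _ _ => Finset.mem_univ _) ?_
      intro a _ b _ hab
      apply Subtype.ext
      have := congrArg (fun v : List.Vector (Fin D) k => v.1) hab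
      simpa using this
    rw [card_vector, Fintype.card_fin] at hinj
    exact_mod_cast hinj
  set L := W.sup List.length with hL
  have hle : ∀ w ∈ W, w.length ∈ Finset.Icc 1 L := by
    intro w hw
    refine Finset.mem_Icc.2 ⟨?_, Finset.le_sup (f := List.length) hw⟩
    exact List.length_pos_iff.2 (hW w hw)
  have hsum : ∑ w ∈ W, ((2 * (D : ℝ)) ^ w.length)⁻¹
      = ∑ k ∈ Finset.Icc 1 L, ((W.filter fun w => w.length = k).card : ℝ)
          * ((2 * (D : ℝ)) ^ k)⁻¹ := by
    rw [← Finset.sum_fiberwise_of_maps_to hle]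
    apply Finset.sum_congr rfl
    intro k _
    rw [Finset.sum_congr rfl (g := fun _ => ((2 * (D : ℝ)) ^ k)⁻¹)]
    · rw [Finset.sum_const, nsmul_eq_mul]
    · intro w hw
      rw [(Finset.mem_filter.1 hw).2]
  rw [hsum]
  have hterm : ∀ k ∈ Finset.Icc 1 L, ((W.filter fun w => w.length = k).card : ℝ)
      * ((2 * (D : ℝ)) ^ k)⁻¹ ≤ (1 / 2) * (1 / 2 : ℝ) ^ (k - 1) := by
    intro k hk
    obtain ⟨hk1, _⟩ := Finset.mem_Icc.1 hk
    obtain ⟨j, rfl⟩ : ∃ j, k = j + 1 := ⟨k - 1, by omega⟩
    have h2 : 0 < (2 * (D : ℝ)) ^ (j + 1) := by positivity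
    calc ((W.filter fun w => w.length = j + 1).card : ℝ) * ((2 * (D : ℝ)) ^ (j + 1))⁻¹
        ≤ (D : ℝ) ^ (j + 1) * ((2 * (D : ℝ)) ^ (j + 1))⁻¹ :=
          mul_le_mul_of_nonneg_right (hcount _) (by positivity)
      _ = (1 / 2) * (1 / 2 : ℝ) ^ (j + 1 - 1) := by
          simp only [Nat.add_sub_cancel]
          have hDk : (D : ℝ) ^ (j + 1) ≠ 0 := by positivity
          have h3 : (1 / 2 : ℝ) * (1 / 2) ^ j = ((2 : ℝ) ^ (j + 1))⁻¹ := by
            rw [one_div, inv_pow, pow_succ, mul_inv]
            ring
          rw [h3, mul_pow, mul_inv]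
          field_simp
  calc _ ≤ ∑ k ∈ Finset.Icc 1 L, (1 / 2) * (1 / 2 : ℝ) ^ (k - 1) := Finset.sum_le_sum hterm
    _ = (1 / 2) * ∑ k ∈ Finset.range L, (1 / 2 : ℝ) ^ k := by
        rw [Finset.mul_sum]
        rw [Finset.sum_bij (fun k _ => k - 1)]
        · intro k hk
          obtain ⟨h1, h2⟩ := Finset.mem_Icc.1 hk
          exact Finset.mem_range.2 (by omega)
        · intro a ha b hb hab
          obtain ⟨h1, _⟩ := Finset.mem_Icc.1 ha
          obtain ⟨h2, _⟩ := Finset.mem_Icc.1 hb
          have hab' : a - 1 = b - 1 := hab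
          omega
        · intro b hb
          refine ⟨b + 1, Finset.mem_Icc.2 ⟨by omega, by have := Finset.mem_range.1 hb; omega⟩, ?_⟩
          simp
        · intro k _
          rfl
    _ ≤ (1 / 2) * 2 := by
        apply mul_le_mul_of_nonneg_left _ (by norm_num)
        exact sum_geometric_two_le L
    _ = 1 := by norm_num

/-- `(a/T)^T ≤ exp a`. -/
theorem x_pow_div_le_exp {a : ℝ} (ha : 0 ≤ a) (T : ℕ) : (a / T) ^ T ≤ Real.exp a := by
  rcases Nat.eq_zero_or_pos T with rfl | hT
  · simp [Real.one_le_exp ha]
  · have hT' : (0 : ℝ) < T := by exact_mod_cast hT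
    have h0 : 0 ≤ a / T := div_nonneg ha hT'.le
    have h1 : a / T ≤ Real.exp (a / T) := by
      have := Real.add_one_le_exp (a / T); linarith
    calc (a / T) ^ T ≤ Real.exp (a / T) ^ T := pow_le_pow_left₀ h0 h1 T
      _ = Real.exp a := by
          rw [← Real.exp_nat_mul]
          congr 1
          field_simp

end Vale.Agent.Lib.P064
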