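import Vale.Agent.Lib.P064S.Base

/-!
Tops and labelled walks: sequences of guesses in a digraph with deterministic labelled arcs.
-/

open Finset

namespace Vale.Agent.Lib.P064

open scoped Classical

variable {α V : Type} {D : ℕ}

/-- Following a word of slots in the host. -/
def xfollow (succ : V → Fin D → V) : V → List (Fin D) → V
  | y, [] => y
  | y, s :: w => xfollow succ (succ y s) w

/-- Labelled walks in a digraph. -/
inductive XWalk (Dg : α → α → Prop) (lab : α → α → Fin D) : α → List (Fin D) → α → Prop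
  | nil (z : α) : XWalk Dg lab z [] z
  | cons {z z' a : α} {w : List (Fin D)} (h : Dg z z') (t : XWalk Dg lab z' w a) :
      XWalk Dg lab z (lab z z' :: w) a

/-- No arc leaves `R`. -/
def XOutClosed (Dg : α → α → Prop) (R : Finset α) : Prop := ∀ u ∈ R, ∀ v, Dg u v → v ∈ R

/-- No arc enters `J`. -/
def XPreClosed (Dg : α → α → Prop) (J : Finset α) : Prop := ∀ u v, v ∈ J → Dg u v → u ∈ J

/-- A minimal nonempty set with no entering arc. -/
def XMinPre (Dg : α → α → Prop) (J : Finset α) : Prop :=
  J.Nonempty ∧ XPreClosed Dg J ∧ ∀ J', J' ⊆ J → J'.Nonempty → XPreClosed Dg J' → J' = J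

/-- One guess: the vertex `z`, the anchor `a`, the last vertex `b` before it, the word. -/
structure XStep (α : Type) (D : ℕ) where
  z : α
  a : α
  b : α
  w : List (Fin D)

variable [Fintype α]

/-- The closure under arcs. -/
noncomputable def xclo (Dg : α → α → Prop) (K : Finset α) : Finset α :=
  univ.filter fun v => ∃ u ∈ K, Relation.ReflTransGen Dg u v

/-- A good sequence of guesses, starting from the known set `R`. -/
def XGood (Dg : α → α → Prop) (lab : α → α → Fin D) (P : Finset α) (μ : ℝ) :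
    Finset α → List (XStep α D) → Prop
  | R, [] => P ⊆ R
  | R, st :: l =>
      st.a ∈ R ∧ st.a ∈ P ∧ st.z ∉ R ∧ st.z ∈ P ∧ st.b ∉ R ∧ st.b ∈ xclo Dg (insert st.z R) ∧
      Dg st.b st.a ∧ XWalk Dg lab st.z st.w st.a ∧ st.w ≠ [] ∧
      st.w.length ≤ ((xclo Dg (insert st.z R) \ R) ∩ P).card ∧
      μ ≤ (((xclo Dg (insert st.z R) \ R) ∩ P).card : ℝ) ∧
      XGood Dg lab P μ (xclo Dg (insert st.z R)) l

/-- The candidates of a step, given the map `φ` on the known part. -/
noncomputable def xcand [DecidableEq V] (Yc : Finset V) (succ : V → Fin D → V) (φ : α → V)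
    (st : XStep α D) : Finset V :=
  Yc.filter fun y => xfollow succ y st.w = φ st.a

lemma subset_xclo (Dg : α → α → Prop) (K : Finset α) : K ⊆ xclo Dg K := by
  intro x hx
  exact Finset.mem_filter.2 ⟨mem_univ _, x, hx, Relation.ReflTransGen.refl⟩

lemma xclo_outClosed (Dg : α → α → Prop) (K : Finset α) : XOutClosed Dg (xclo Dg K) := by
  intro u hu v huv
  obtain ⟨_, x, hx, hxu⟩ := Finset.mem_filter.1 hu
  exact Finset.mem_filter.2 ⟨mem_univ _, x, hx, hxu.tail huv⟩

/-- Members agreeing on `K` agree on the closure of `K`. -/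
lemma agree_xclo {Dg : α → α → Prop} {lab : α → α → Fin D} {succ : V → Fin D → V} {K : Finset α}
    {φ φ' : α → V} (h1 : ∀ u v, Dg u v → φ v = succ (φ u) (lab u v))
    (h2 : ∀ u v, Dg u v → φ' v = succ (φ' u) (lab u v)) (hK : ∀ y ∈ K, φ y = φ' y) :
    ∀ y ∈ xclo Dg K, φ y = φ' y := by
  intro y hy
  obtain ⟨_, x, hx, hxy⟩ := Finset.mem_filter.1 hy
  clear hy
  induction hxy with
  | refl => exact hK x hx
  | tail _ huv ih => rw [h1 _ _ huv, h2 _ _ huv, ih (mem_univ _)]

/-- Following the label word of a walk. -/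
lemma xwalk_follow {Dg : α → α → Prop} {lab : α → α → Fin D} {succ : V → Fin D → V} {z a : α}
    {w : List (Fin D)} (h : XWalk Dg lab z w a) {φ : α → V}
    (hφ : ∀ u v, Dg u v → φ v = succ (φ u) (lab u v)) : xfollow succ (φ z) w = φ a := by
  induction h with
  | nil z => rfl
  | cons h t ih =>
      simp only [xfollow]
      rw [← hφ _ _ h]
      exact ih

/-- Appending an arc to a walk. -/
lemma xwalk_append {Dg : α → α → Prop} {lab : α → α → Fin D} {z b a : α}
    {w : List (Fin D)} (h : XWalk Dg lab z w b) (hb : Dg b a) :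
    XWalk Dg lab z (w ++ [lab b a]) a := by
  induction h with
  | nil z => exact XWalk.cons hb (XWalk.nil a)
  | cons h t ih => exact XWalk.cons h (ih hb)

end Vale.Agent.Lib.P064
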