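import Vale.Agent.Lib.P064X.Seq

/-!
Counting in a good sequence.
-/

open Finset

namespace Vale.Agent.Lib.P064

open scoped Classical

variable {α : Type} [Fintype α] {D : ℕ} {Dg : α → α → Prop} {lab : α → α → Fin D}
  {P : Finset α} {μ : ℝ}

private lemma xgood_sub (R : Finset α) (z : α) : R ⊆ xclo Dg (insert z R) :=
  fun _ hx => subset_xclo Dg _ (Finset.mem_insert_of_mem hx)

/-- The total length of the words and the number of steps. -/
theorem xgood_card (l : List (XStep α D)) (R : Finset α) (h : XGood Dg lab P μ R l) :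
    (l.map (fun st => st.w.length)).sum ≤ (P \ R).card ∧
      (l.length : ℝ) * μ ≤ ((P \ R).card : ℝ) := by
  induction l generalizing R with
  | nil => simp
  | cons st l ih =>
    obtain ⟨_, _, _, _, _, _, _, _, _, hlen, hmu, hrest⟩ := h
    obtain ⟨h1, h2⟩ := ih _ hrest
    set R' := xclo Dg (insert st.z R) with hR'
    have hRR' : R ⊆ R' := xgood_sub R st.z
    -- split `P \ R`
    have hdisj : Disjoint ((R' \ R) ∩ P) (P \ R') := by
      rw [Finset.disjoint_left]
      intro x hx hx'
      have h3 := (Finset.mem_sdiff.1 (Finset.mem_inter.1 hx).1).1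
      exact (Finset.mem_sdiff.1 hx').2 h3
    have hsub : ((R' \ R) ∩ P) ∪ (P \ R') ⊆ P \ R := by
      intro x hx
      rcases Finset.mem_union.1 hx with hx | hx
      · obtain ⟨hx1, hx2⟩ := Finset.mem_inter.1 hx
        exact Finset.mem_sdiff.2 ⟨hx2, (Finset.mem_sdiff.1 hx1).2⟩
      · obtain ⟨hx1, hx2⟩ := Finset.mem_sdiff.1 hx
        exact Finset.mem_sdiff.2 ⟨hx1, fun hxR => hx2 (hRR' hxR)⟩
    have hcard : ((R' \ R) ∩ P).card + (P \ R').card ≤ (P \ R).card := by
      rw [← Finset.card_union_of_disjoint hdisj]
      exact Finset.card_le_card hsub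
    have hcard' : (((R' \ R) ∩ P).card : ℝ) + ((P \ R').card : ℝ) ≤ ((P \ R).card : ℝ) := by
      exact_mod_cast hcard
    constructor
    · simp only [List.map_cons, List.sum_cons]
      omega
    · simp only [List.length_cons]
      push_cast
      nlinarith [h2, hmu, hcard']

/-- The simple facts on the steps of a good sequence. -/
theorem xgood_steps (l : List (XStep α D)) (R : Finset α) (h : XGood Dg lab P μ R l) :
    ∀ st ∈ l, st.a ∈ P ∧ st.z ∈ P ∧ st.w ≠ [] ∧ Dg st.b st.a := by
  induction l generalizing R with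
  | nil => simp
  | cons st l ih =>
    obtain ⟨_, ha, _, hz, _, _, hD, _, hw, _, _, hrest⟩ := h
    intro st' hst'
    rcases List.mem_cons.1 hst' with rfl | hst'
    · exact ⟨ha, hz, hw, hD⟩
    · exact ih _ hrest st' hst'

private lemma xgood_b (l : List (XStep α D)) (R : Finset α) (h : XGood Dg lab P μ R l) :
    (∀ st ∈ l, st.b ∉ R) ∧ (l.map (fun st => st.b)).Nodup := by
  induction l generalizing R with
  | nil => simp
  | cons st l ih =>
    obtain ⟨_, _, _, _, hb, hbc, _, _, _, _, _, hrest⟩ := h
    obtain ⟨h1, h2⟩ := ih _ hrest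
    constructor
    · intro st' hst'
      rcases List.mem_cons.1 hst' with rfl | hst'
      · exact hb
      · exact fun hR => h1 st' hst' (xgood_sub R st.z hR)
    · simp only [List.map_cons, List.nodup_cons]
      refine ⟨?_, h2⟩
      intro hmem
      obtain ⟨st', hst', hEq⟩ := List.mem_map.1 hmem
      exact h1 st' hst' (by rw [hEq]; exact hbc)

/-- Steps with the same anchor have different last vertices. -/
theorem xgood_mult (l : List (XStep α D)) (R : Finset α) (h : XGood Dg lab P μ R l) (a : α) :
    (l.filter (fun st => st.a = a)).length ≤ (univ.filter fun b => Dg b a).card := by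
  have hnd : ((l.filter (fun st => st.a = a)).map (fun st => st.b)).Nodup :=
    List.Nodup.sublist (List.Sublist.map _ List.filter_sublist) (xgood_b l R h).2
  have hlen : ((l.filter (fun st => st.a = a)).map (fun st => st.b)).toFinset.card
      = (l.filter (fun st => st.a = a)).length := by
    rw [List.toFinset_card_of_nodup hnd, List.length_map]
  rw [← hlen]
  apply Finset.card_le_card
  intro b hb
  obtain ⟨st, hst, rfl⟩ := List.mem_map.1 (List.mem_toFinset.1 hb)
  obtain ⟨hst1, hst2⟩ := List.mem_filter.1 hst
  have hsteps := (xgood_steps l R h st hst1).2.2.2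
  have ha : st.a = a := by simpa using hst2
  rw [ha] at hsteps
  exact Finset.mem_filter.2 ⟨mem_univ _, hsteps⟩

end Vale.Agent.Lib.P064
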