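import Vale.Agent.Lib.P064X.Seq

/-!
The count along a good sequence: the candidates multiply along each member.
-/

open Finset

namespace Vale.Agent.Lib.P064

open scoped Classical

variable {α V : Type} [Fintype α] {D : ℕ} {Dg : α → α → Prop} {lab : α → α → Fin D}
  {P : Finset α} {μ : ℝ}

/-- The count along a good sequence: induction on `l`, partition by `φ st.z`, budget `B / |C|`. -/
theorem xgood_count (succ : V → Fin D → V) (Yc : Finset V) (X : Finset α)
    (l : List (XStep α D)) :
    ∀ (R : Finset α) (S : Finset (α → V)) (B : ℝ), XGood Dg lab P μ R l → 0 ≤ B → X ⊆ P ∪ R →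
      (∀ φ ∈ S, ∀ φ' ∈ S, ∀ y ∈ R, φ y = φ' y) →
      (∀ φ ∈ S, ∀ p ∈ P, φ p ∈ Yc) →
      (∀ φ ∈ S, ∀ u v, Dg u v → φ v = succ (φ u) (lab u v)) →
      (∀ φ ∈ S, (l.map (fun st => ((xcand Yc succ φ st).card : ℝ))).prod ≤ B) →
      ((S.image (proj X)).card : ℝ) ≤ B := by
  induction l with
  | nil =>
      intro R S B hgood hB hX hagree _ _ hprod
      rcases S.eq_empty_or_nonempty with rfl | ⟨φ₀, hφ₀⟩
      · simpa using hB
      have hPR : P ⊆ R := hgood
      have h1 : (S.image (proj X)).card ≤ 1 := by
        rw [Finset.card_le_one]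
        intro a ha b hb
        obtain ⟨φ, hφ, rfl⟩ := Finset.mem_image.1 ha
        obtain ⟨φ', hφ', rfl⟩ := Finset.mem_image.1 hb
        funext y
        by_cases hy : y ∈ X
        · simp only [proj, if_pos hy]
          have hy' : y ∈ R := by
            rcases Finset.mem_union.1 (hX hy) with h | h
            · exact hPR h
            · exact h
          rw [hagree φ hφ φ' hφ' y hy']
        · simp [proj, hy]
      have h2 := hprod φ₀ hφ₀
      simp only [List.map_nil, List.prod_nil] at h2
      calc ((S.image (proj X)).card : ℝ) ≤ (1 : ℝ) := by exact_mod_cast h1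
        _ ≤ B := h2
  | cons st l ih =>
      intro R S B hgood hB hX hagree hYc hdet hprod
      rcases S.eq_empty_or_nonempty with rfl | ⟨φ₀, hφ₀⟩
      · simpa using hB
      obtain ⟨haR, _, _, hzP, _, _, _, hwalk, _, _, _, hgood'⟩ := hgood
      set R' := xclo Dg (insert st.z R) with hR'
      have hRR' : R ⊆ R' := fun y hy => subset_xclo Dg _ (Finset.mem_insert_of_mem hy)
      have hzR' : st.z ∈ R' := subset_xclo Dg _ (Finset.mem_insert_self _ _)
      set C := xcand Yc succ φ₀ st with hC
      have hcand_eq : ∀ φ ∈ S, xcand Yc succ φ st = C := by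
        intro φ hφ
        have hae : φ st.a = φ₀ st.a := hagree φ hφ φ₀ hφ₀ _ haR
        simp only [hC, xcand, hae]
      have hmemC : ∀ φ ∈ S, φ st.z ∈ C := by
        intro φ hφ
        have hf : xfollow succ (φ st.z) st.w = φ st.a := xwalk_follow hwalk (hdet φ hφ)
        have hae : φ st.a = φ₀ st.a := hagree φ hφ φ₀ hφ₀ _ haR
        refine Finset.mem_filter.2 ⟨hYc φ hφ _ hzP, ?_⟩
        rw [hf, hae]
      have hCpos : (0 : ℝ) < (C.card : ℝ) := by
        exact_mod_cast Finset.card_pos.2 ⟨_, hmemC φ₀ hφ₀⟩
      have hstep : ∀ c ∈ C, (((S.filter fun φ => φ st.z = c).image (proj X)).card : ℝ)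
          ≤ B / C.card := by
        intro c _
        refine ih R' _ _ hgood' (div_nonneg hB hCpos.le) ?_ ?_ ?_ ?_ ?_
        · intro y hy
          rcases Finset.mem_union.1 (hX hy) with h | h
          · exact Finset.mem_union_left _ h
          · exact Finset.mem_union_right _ (hRR' h)
        · intro φ hφ φ' hφ' y hy
          obtain ⟨hφS, hφc⟩ := Finset.mem_filter.1 hφ
          obtain ⟨hφS', hφc'⟩ := Finset.mem_filter.1 hφ'
          refine agree_xclo (hdet φ hφS) (hdet φ' hφS') ?_ y hy
          intro u hu
          rcases Finset.mem_insert.1 hu with rfl | hu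
          · rw [hφc, hφc']
          · exact hagree φ hφS φ' hφS' u hu
        · intro φ hφ p hp
          exact hYc φ (Finset.mem_filter.1 hφ).1 p hp
        · intro φ hφ
          exact hdet φ (Finset.mem_filter.1 hφ).1
        · intro φ hφ
          have hφS := (Finset.mem_filter.1 hφ).1
          have h := hprod φ hφS
          simp only [List.map_cons, List.prod_cons, hcand_eq φ hφS] at h
          rw [le_div_iff₀ hCpos, mul_comm]
          exact h
      have hsub : S.image (proj X) ⊆
          C.biUnion fun c => (S.filter fun φ => φ st.z = c).image (proj X) := by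
        intro a ha
        obtain ⟨φ, hφ, rfl⟩ := Finset.mem_image.1 ha
        exact Finset.mem_biUnion.2 ⟨φ st.z, hmemC φ hφ,
          Finset.mem_image.2 ⟨φ, Finset.mem_filter.2 ⟨hφ, rfl⟩, rfl⟩⟩
      calc ((S.image (proj X)).card : ℝ)
          ≤ ((C.biUnion fun c => (S.filter fun φ => φ st.z = c).image (proj X)).card : ℝ) := by
            exact_mod_cast Finset.card_le_card hsub
        _ ≤ ∑ c ∈ C, (((S.filter fun φ => φ st.z = c).image (proj X)).card : ℝ) := by
            exact_mod_cast Finset.card_biUnion_le
        _ ≤ ∑ _c ∈ C, B / C.card := Finset.sum_le_sum hstep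
        _ = B := by
            rw [Finset.sum_const, nsmul_eq_mul]
            field_simp

end Vale.Agent.Lib.P064
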