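import Vale.Agent.Lib.P064X.Seq

/-!
Existence of a good sequence.
-/

open Finset

namespace Vale.Agent.Lib.P064

open scoped Classical

variable {α : Type} [Fintype α] {D : ℕ} {Dg : α → α → Prop} {lab : α → α → Fin D}

/-- One step of shortening a walk: leave the first vertex for good. -/
lemma xwalk_short_aux (X : Finset α) {z b : α} (hzb : z ≠ b) (hb : b ∈ X) {u : α}
    (h : Relation.ReflTransGen (fun u v => Dg u v ∧ u ∈ X ∧ v ∈ X) u b) :
    (u ≠ z ∧ u ∈ X ∧
        Relation.ReflTransGen (fun u v => Dg u v ∧ u ∈ X.erase z ∧ v ∈ X.erase z) u b) ∨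
      ∃ z', Dg z z' ∧ z' ∈ X.erase z ∧
        Relation.ReflTransGen (fun u v => Dg u v ∧ u ∈ X.erase z ∧ v ∈ X.erase z) z' b := by
  induction h using Relation.ReflTransGen.head_induction_on with
  | refl => exact Or.inl ⟨fun e => hzb e.symm, hb, Relation.ReflTransGen.refl⟩
  | @head a c hstep _ ih =>
      rcases ih with ⟨hcz, hcX, hc⟩ | hB
      · by_cases haz : a = z
        · subst haz
          exact Or.inr ⟨c, hstep.1, Finset.mem_erase.2 ⟨hcz, hcX⟩, hc⟩
        · refine Or.inl ⟨haz, hstep.2.1, Relation.ReflTransGen.head ?_ hc⟩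
          exact ⟨hstep.1, Finset.mem_erase.2 ⟨haz, hstep.2.1⟩, Finset.mem_erase.2 ⟨hcz, hcX⟩⟩
      · exact Or.inr hB

/-- A walk inside a finite set can be taken short. Strong induction on `X.card`, removing `z`. -/
theorem xwalk_short (X : Finset α) {z b : α} (hz : z ∈ X) (hb : b ∈ X)
    (h : Relation.ReflTransGen (fun u v => Dg u v ∧ u ∈ X ∧ v ∈ X) z b) :
    ∃ w : List (Fin D), XWalk Dg lab z w b ∧ w.length + 1 ≤ X.card := by
  induction hk : X.card using Nat.strong_induction_on generalizing X z with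
  | _ k ih =>
    by_cases hzb : z = b
    · subst hzb
      refine ⟨[], XWalk.nil z, ?_⟩
      have : 0 < X.card := Finset.card_pos.2 ⟨z, hz⟩
      simp only [List.length_nil]
      omega
    · rcases xwalk_short_aux X hzb hb h with ⟨hne, _, _⟩ | ⟨z', hzz', hz'X, hz'⟩
      · exact absurd rfl hne
      · have hbX : b ∈ X.erase z := Finset.mem_erase.2 ⟨fun e => hzb e.symm, hb⟩
        have hcard : (X.erase z).card + 1 = X.card := by
          rw [Finset.card_erase_of_mem hz]
          have : 0 < X.card := Finset.card_pos.2 ⟨z, hz⟩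
          omega
        obtain ⟨w, hw, hwl⟩ := ih (X.erase z).card (by omega) (X.erase z) hz'X hbX hz' rfl
        refine ⟨lab z z' :: w, XWalk.cons hzz' hw, ?_⟩
        simp only [List.length_cons]
        omega

/-- A minimal set without entering arc: all its members are reachable from any member. -/
theorem xminPre_reach {J : Finset α} (hJ : XMinPre Dg J) {z u : α} (hz : z ∈ J) (hu : u ∈ J) :
    Relation.ReflTransGen Dg z u := by
  obtain ⟨_, hpre, hmin⟩ := hJ
  set A : Finset α := univ.filter fun x => Relation.ReflTransGen Dg x u with hA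
  have hAJ : A ⊆ J := by
    intro x hx
    have hx' : Relation.ReflTransGen Dg x u := (Finset.mem_filter.1 hx).2
    clear hx
    induction hx' using Relation.ReflTransGen.head_induction_on with
    | refl => exact hu
    | head hstep _ ih => exact hpre _ _ ih hstep
  have hApre : XPreClosed Dg A := by
    intro a c hc hac
    exact Finset.mem_filter.2 ⟨mem_univ _, Relation.ReflTransGen.head hac (Finset.mem_filter.1 hc).2⟩
  have hAne : A.Nonempty := ⟨u, Finset.mem_filter.2 ⟨mem_univ _, Relation.ReflTransGen.refl⟩⟩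
  have hAeq : A = J := hmin A hAJ hAne hApre
  have : z ∈ A := hAeq ▸ hz
  exact (Finset.mem_filter.1 this).2

/-- Every nonempty set without entering arc contains a minimal one. -/
theorem exists_xminPre {J : Finset α} (hne : J.Nonempty) (hJ : XPreClosed Dg J) :
    ∃ J' ⊆ J, XMinPre Dg J' := by
  classical
  set Fam : Finset (Finset α) := J.powerset.filter fun J' => J'.Nonempty ∧ XPreClosed Dg J' with hFam
  have hFne : Fam.Nonempty :=
    ⟨J, Finset.mem_filter.2 ⟨Finset.mem_powerset.2 (Finset.Subset.refl _), hne, hJ⟩⟩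
  obtain ⟨J', hJ'F, hJ'min⟩ := Finset.exists_min_image Fam Finset.card hFne
  obtain ⟨hJ'sub, hJ'ne, hJ'pre⟩ := Finset.mem_filter.1 hJ'F
  have hJ'sub' : J' ⊆ J := Finset.mem_powerset.1 hJ'sub
  refine ⟨J', hJ'sub', hJ'ne, hJ'pre, ?_⟩
  intro J'' hJ''sub hJ''ne hJ''pre
  have : J'' ∈ Fam := Finset.mem_filter.2
    ⟨Finset.mem_powerset.2 (hJ''sub.trans hJ'sub'), hJ''ne, hJ''pre⟩
  exact Finset.eq_of_subset_of_card_le hJ''sub (hJ'min J'' this)

/-- Existence of a good sequence. Strong induction on `(P \ R).card`. If `P ⊄ R`, connectivity gives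
`a ∈ R ∩ P`, `b ∈ P \ R` with an arc `b → a` (no arc leaves `R`). The ancestors of `b` form a set
inside `P \ R` without entering arc; take `J` minimal inside it, `z ∈ J`, `R' = xclo (insert z R)`.
`J ⊆ R' \ R`, so `μ ≤ |(R' \ R) ∩ P|`. `xwalk_short` in `(R' \ R) ∩ P`, then `xwalk_append`. -/
theorem exists_xgood {P : Finset α} {μ : ℝ}
    (hpre : ∀ J ⊆ P, XMinPre Dg J → μ ≤ (J.card : ℝ))
    (hconn : ∀ D' ⊆ P, D'.Nonempty → D' ≠ P → ∃ u ∈ D', ∃ v ∈ P \ D', Dg u v ∨ Dg v u) :
    ∀ (R : Finset α), XOutClosed Dg R →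
      (∀ u v, Dg u v → (u ∈ P ∨ u ∈ R) ∧ (v ∈ P ∨ v ∈ R)) →
      ((R ∩ P).Nonempty ∨ P ⊆ R) →
      ∃ l : List (XStep α D), XGood Dg lab P μ R l := by
  intro R
  induction hk : (P \ R).card using Nat.strong_induction_on generalizing R with
  | _ k ih =>
    intro hout hsupp hstart
    by_cases hPR : P ⊆ R
    · exact ⟨[], hPR⟩
    have hne : (R ∩ P).Nonempty := by
      rcases hstart with h | h
      · exact h
      · exact absurd h hPR
    have hne' : R ∩ P ≠ P := fun e => hPR (fun x hx => by
      have hx' : x ∈ R ∩ P := by rw [e]; exact hx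
      exact (Finset.mem_inter.1 hx').1)
    obtain ⟨a, haD, b, hbD, hab⟩ := hconn (R ∩ P) Finset.inter_subset_right hne hne'
    obtain ⟨haR, haP⟩ := Finset.mem_inter.1 haD
    obtain ⟨hbP, hbnot⟩ := Finset.mem_sdiff.1 hbD
    have hbR : b ∉ R := fun h => hbnot (Finset.mem_inter.2 ⟨h, hbP⟩)
    have hba : Dg b a := by
      rcases hab with h | h
      · exact absurd (hout a haR b h) hbR
      · exact h
    -- ancestors of `b`
    have hancR : ∀ x, Relation.ReflTransGen Dg x b → x ∉ R := by
      intro x hx hxR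
      have : ∀ y, Relation.ReflTransGen Dg x y → y ∈ R := by
        intro y hy
        induction hy with
        | refl => exact hxR
        | tail _ hs ih' => exact hout _ ih' _ hs
      exact hbR (this b hx)
    have hancP : ∀ x, Relation.ReflTransGen Dg x b → x ∈ P := by
      intro x hx
      rcases Relation.ReflTransGen.cases_head hx with e | ⟨y, hxy, _⟩
      · exact e ▸ hbP
      · rcases (hsupp x y hxy).1 with h | h
        · exact h
        · exact absurd h (hancR x hx)
    set Anc : Finset α := univ.filter fun x => Relation.ReflTransGen Dg x b with hAnc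
    have hAncne : Anc.Nonempty := ⟨b, Finset.mem_filter.2 ⟨mem_univ _, Relation.ReflTransGen.refl⟩⟩
    have hAncpre : XPreClosed Dg Anc := by
      intro u v hv huv
      exact Finset.mem_filter.2 ⟨mem_univ _, Relation.ReflTransGen.head huv (Finset.mem_filter.1 hv).2⟩
    obtain ⟨J, hJA, hJmin⟩ := exists_xminPre hAncne hAncpre
    obtain ⟨z, hzJ⟩ := hJmin.1
    have hzb : Relation.ReflTransGen Dg z b := (Finset.mem_filter.1 (hJA hzJ)).2
    have hJanc : ∀ x ∈ J, Relation.ReflTransGen Dg x b := fun x hx =>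
      (Finset.mem_filter.1 (hJA hx)).2
    set R' : Finset α := xclo Dg (insert z R) with hR'
    have hzR' : z ∈ R' := subset_xclo Dg _ (Finset.mem_insert_self _ _)
    have hRR' : R ⊆ R' := fun x hx => subset_xclo Dg _ (Finset.mem_insert_of_mem hx)
    have hreach : ∀ y, Relation.ReflTransGen Dg z y → y ∈ R' := by
      intro y hy
      exact Finset.mem_filter.2 ⟨mem_univ _, z, Finset.mem_insert_self _ _, hy⟩
    set X : Finset α := (R' \ R) ∩ P with hX
    have hinX : ∀ y, Relation.ReflTransGen Dg z y → Relation.ReflTransGen Dg y b → y ∈ X := by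
      intro y h1 h2
      exact Finset.mem_inter.2 ⟨Finset.mem_sdiff.2 ⟨hreach y h1, hancR y h2⟩, hancP y h2⟩
    have hJX : J ⊆ X := by
      intro x hx
      exact hinX x (xminPre_reach hJmin hzJ hx) (hJanc x hx)
    have hμ : μ ≤ (X.card : ℝ) := by
      refine (hpre J ?_ hJmin).trans ?_
      · exact fun x hx => hancP x (hJanc x hx)
      · exact_mod_cast Finset.card_le_card hJX
    have hwalk : ∀ y, Relation.ReflTransGen Dg z y → Relation.ReflTransGen Dg y b →
        Relation.ReflTransGen (fun u v => Dg u v ∧ u ∈ X ∧ v ∈ X) z y := by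
      intro y h1
      induction h1 with
      | refl => intro _; exact Relation.ReflTransGen.refl
      | tail h1' hs ih' =>
          intro h2
          have h3 := Relation.ReflTransGen.head hs h2
          exact (ih' h3).tail ⟨hs, hinX _ h1' h3, hinX _ (h1'.tail hs) h2⟩
    have hzX : z ∈ X := hJX hzJ
    have hbX : b ∈ X := hinX b hzb Relation.ReflTransGen.refl
    obtain ⟨w0, hw0, hw0l⟩ := xwalk_short (lab := lab) X hzX hbX
      (hwalk b hzb Relation.ReflTransGen.refl)
    have hlt : (P \ R').card < (P \ R).card := by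
      refine Finset.card_lt_card ⟨?_, ?_⟩
      · intro x hx
        obtain ⟨h1, h2⟩ := Finset.mem_sdiff.1 hx
        exact Finset.mem_sdiff.2 ⟨h1, fun h => h2 (hRR' h)⟩
      · intro hsub
        have hzPR : z ∈ P \ R := Finset.mem_sdiff.2
          ⟨hancP z hzb, hancR z hzb⟩
        exact (Finset.mem_sdiff.1 (hsub hzPR)).2 hzR'
    obtain ⟨l, hl⟩ := ih (P \ R').card (hk ▸ hlt) R' rfl (xclo_outClosed Dg _)
      (fun u v huv => by
        obtain ⟨h1, h2⟩ := hsupp u v huv
        exact ⟨h1.imp_right (fun h => hRR' h), h2.imp_right (fun h => hRR' h)⟩)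
      (Or.inl ⟨z, Finset.mem_inter.2 ⟨hzR', hancP z hzb⟩⟩)
    refine ⟨⟨z, a, b, w0 ++ [lab b a]⟩ :: l, ?_⟩
    refine ⟨haR, haP, hancR z hzb, hancP z hzb, hbR, hreach b hzb, hba, ?_, ?_, ?_, hμ, hl⟩
    · exact xwalk_append hw0 hba
    · simp
    · simp only [List.length_append, List.length_cons, List.length_nil]
      omega

end Vale.Agent.Lib.P064
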