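import Vale.Agent.Lib.P064X.Num0

/-!
The product of the candidates along one member: weighted means, words, multiplicities.
-/

open Finset

namespace Vale.Agent.Lib.P064

open scoped Classical

variable {α V : Type} [Fintype α] {D : ℕ}

private lemma card_filter_getElem {ι : Type} (l : List ι) (p : ι → Bool) :
    ((univ : Finset (Fin l.length)).filter fun i => p l[i.1] = true).card = (l.filter p).length := by
  have h1 : ∀ l' : List ι, (l'.filter p).length = (l'.map fun st => if p st = true then 1 else 0).sum := by
    intro l'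
    induction l' with
    | nil => simp
    | cons a t ih =>
      by_cases h : p a = true
      · simp [h, ih, add_comm]
      · simp [h, ih]
  rw [h1, Finset.card_filter]
  exact Fin.sum_univ_fun_getElem l (fun st => if p st = true then 1 else 0)

/-- The product of the candidates. For fixed `y` and word `w` the anchor is determined, since `φ`
is injective; so the sum of `|C_i| / (2D)^|w_i|` over the steps is at most `|Yc| m`
(`x_words_sum`), and then `x_amgm_list`. -/
theorem xprod_cand (hD : 1 ≤ D) (succ : V → Fin D → V) (Yc : Finset V) {φ : α → V}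
    (hφ : Function.Injective φ) (l : List (XStep α D)) {m : ℝ} (hm0 : 0 ≤ m)
    (hm : ∀ a, ((l.filter (fun st => st.a = a)).length : ℝ) ≤ m)
    (hne : ∀ st ∈ l, st.w ≠ []) :
    (l.map (fun st => ((xcand Yc succ φ st).card : ℝ))).prod ≤
      (2 * (D : ℝ)) ^ (l.map (fun st => st.w.length)).sum *
        (((Yc.card : ℝ) * m) / l.length) ^ l.length := by
  classical
  set c : ℝ := 2 * (D : ℝ) with hc
  have hD' : (1 : ℝ) ≤ D := by exact_mod_cast hD
  have hc0 : 0 < c := by rw [hc]; linarith
  let g : XStep α D → ℝ := fun st => ((xcand Yc succ φ st).card : ℝ) * (c ^ st.w.length)⁻¹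
  have hg0 : ∀ st, 0 ≤ g st := fun st => by
    simp only [g]
    positivity
  have hsplit : ∀ l' : List (XStep α D),
      (l'.map (fun st => ((xcand Yc succ φ st).card : ℝ))).prod =
        c ^ (l'.map (fun st => st.w.length)).sum * (l'.map g).prod := by
    intro l'
    induction l' with
    | nil => simp
    | cons st t ih =>
      have h0 : c ^ st.w.length ≠ 0 := (pow_pos hc0 _).ne'
      simp only [List.map_cons, List.prod_cons, List.sum_cons, ih, pow_add, g]
      field_simp
  rw [hsplit]
  refine mul_le_mul_of_nonneg_left ?_ (pow_pos hc0 _).le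
  refine (x_amgm_list l g (fun i _ => hg0 i)).trans ?_
  have hsum0 : 0 ≤ (l.map g).sum := by
    refine List.sum_nonneg ?_
    intro x hx
    obtain ⟨st, _, rfl⟩ := List.mem_map.1 hx
    exact hg0 st
  refine pow_le_pow_left₀ (div_nonneg hsum0 (Nat.cast_nonneg _)) ?_ _
  refine div_le_div_of_nonneg_right ?_ (Nat.cast_nonneg _)
  -- the main sum
  rw [← Fin.sum_univ_fun_getElem l g]
  let f : V → Fin l.length → ℝ := fun y i =>
    if xfollow succ y (l[i.1]).w = φ (l[i.1]).a then (c ^ (l[i.1]).w.length)⁻¹ else 0
  have hgf : ∀ i : Fin l.length, g l[i.1] = ∑ y ∈ Yc, f y i := by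
    intro i
    simp only [g, f, xcand]
    rw [Finset.card_filter, Nat.cast_sum, Finset.sum_mul]
    refine Finset.sum_congr rfl ?_
    intro y _
    split_ifs <;> simp
  simp_rw [hgf]
  rw [Finset.sum_comm]
  have hbound : ∀ y ∈ Yc, ∑ i, f y i ≤ m := by
    intro y _
    set W : Finset (List (Fin D)) := univ.image fun i : Fin l.length => (l[i.1]).w with hW
    rw [← Finset.sum_fiberwise_of_maps_to (t := W) (g := fun i : Fin l.length => (l[i.1]).w)
      (fun i _ => Finset.mem_image_of_mem _ (mem_univ i))]
    have hfib : ∀ w ∈ W, ∑ i ∈ univ.filter (fun i : Fin l.length => (l[i.1]).w = w), f y i ≤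
        m * (c ^ w.length)⁻¹ := by
      intro w _
      set A := (univ.filter (fun i : Fin l.length => (l[i.1]).w = w)).filter
        (fun i => xfollow succ y (l[i.1]).w = φ (l[i.1]).a) with hA
      have h1 : ∑ i ∈ univ.filter (fun i : Fin l.length => (l[i.1]).w = w), f y i =
          (A.card : ℝ) * (c ^ w.length)⁻¹ := by
        simp only [f]
        rw [← Finset.sum_filter, ← hA, ← nsmul_eq_mul, ← Finset.sum_const]
        refine Finset.sum_congr rfl ?_
        intro i hi
        have hi2 := (Finset.mem_filter.1 (Finset.mem_filter.1 hi).1).2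
        rw [hi2]
      rw [h1]
      refine mul_le_mul_of_nonneg_right ?_ (inv_nonneg.2 (pow_pos hc0 _).le)
      by_cases hAe : A.Nonempty
      · obtain ⟨i₀, hi₀⟩ := hAe
        set a₀ : α := (l[i₀.1]).a with ha₀
        have hsub : A ⊆ (univ : Finset (Fin l.length)).filter
            (fun i => (fun st : XStep α D => decide (st.a = a₀)) l[i.1] = true) := by
          intro i hi
          refine Finset.mem_filter.2 ⟨mem_univ _, ?_⟩
          obtain ⟨hi1, hi2⟩ := Finset.mem_filter.1 hi
          obtain ⟨hj1, hj2⟩ := Finset.mem_filter.1 hi₀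
          have hi3 := (Finset.mem_filter.1 hi1).2
          have hj3 := (Finset.mem_filter.1 hj1).2
          rw [hi3] at hi2
          rw [hj3] at hj2
          have := hφ (hi2.symm.trans hj2)
          simpa using this
        have hcard := (Finset.card_le_card hsub).trans_eq
          (card_filter_getElem l (fun st : XStep α D => decide (st.a = a₀)))
        have hcard' : (A.card : ℝ) ≤
            ((l.filter (fun st : XStep α D => decide (st.a = a₀))).length : ℝ) := by
          exact_mod_cast hcard
        exact hcard'.trans (hm a₀)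
      · rw [Finset.not_nonempty_iff_eq_empty.1 hAe]
        simpa using hm0
    refine (Finset.sum_le_sum hfib).trans ?_
    rw [← Finset.mul_sum]
    have hW1 : ∑ w ∈ W, (c ^ w.length)⁻¹ ≤ 1 := by
      refine x_words_sum hD W ?_
      intro w hw
      obtain ⟨i, _, rfl⟩ := Finset.mem_image.1 hw
      exact hne _ (List.getElem_mem _)
    nlinarith
  calc ∑ y ∈ Yc, ∑ i, f y i ≤ ∑ _y ∈ Yc, m := Finset.sum_le_sum hbound
    _ = (Yc.card : ℝ) * m := by rw [Finset.sum_const, nsmul_eq_mul]

end Vale.Agent.Lib.P064
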