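import Vale.Agent.Lib.P064X.SeqCard
import Vale.Agent.Lib.P064X.SeqCount
import Vale.Agent.Lib.P064X.SeqProd
import Vale.Agent.Lib.P064X.SeqEx

/-!
The count for a fixed pattern.
-/

open Finset

namespace Vale.Agent.Lib.P064

open scoped Classical

variable {α V : Type} [Fintype α] {D : ℕ} {Dg : α → α → Prop} {lab : α → α → Fin D}

/-- The count from a known closed set meeting `P`. Assemble `exists_xgood`, `xgood_card`,
`xgood_mult`, `xgood_count`, `xprod_cand`. -/
theorem xcount (hD : 1 ≤ D) (succ : V → Fin D → V) {P X R : Finset α} {μ : ℝ}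
    {S : Finset (α → V)} {Yc : Finset V} {m : ℝ} (hm0 : 0 ≤ m)
    (hfol : ∀ φ ∈ S, ∀ u v, Dg u v → φ v = succ (φ u) (lab u v))
    (hinj : ∀ φ ∈ S, Function.Injective φ)
    (hagree : ∀ φ ∈ S, ∀ φ' ∈ S, ∀ y ∈ R, φ y = φ' y)
    (hYc : ∀ φ ∈ S, ∀ p ∈ P, φ p ∈ Yc)
    (hX : X ⊆ P ∪ R)
    (hR : XOutClosed Dg R)
    (hsupp : ∀ u v, Dg u v → (u ∈ P ∨ u ∈ R) ∧ (v ∈ P ∨ v ∈ R))
    (hanch : (R ∩ P).Nonempty ∨ P ⊆ R)
    (hconn : ∀ D' ⊆ P, D'.Nonempty → D' ≠ P → ∃ u ∈ D', ∃ v ∈ P \ D', Dg u v ∨ Dg v u)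
    (hpre : ∀ J ⊆ P, XMinPre Dg J → μ ≤ (J.card : ℝ))
    (hindeg : ∀ a ∈ P, ((univ.filter fun b => Dg b a).card : ℝ) ≤ m) :
    ∃ T : ℕ, (T : ℝ) * μ ≤ ((P \ R).card : ℝ) ∧
      ((S.image (proj X)).card : ℝ) ≤
        (2 * (D : ℝ)) ^ (P \ R).card * (((Yc.card : ℝ) * m) / T) ^ T := by
  classical
  obtain ⟨l, hl⟩ := exists_xgood (lab := lab) hpre hconn R hR hsupp hanch
  obtain ⟨hc1, hc2⟩ := xgood_card l R hl
  have hst := xgood_steps l R hl
  have hD' : (1 : ℝ) ≤ D := by exact_mod_cast hD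
  have h2D : (1 : ℝ) ≤ 2 * (D : ℝ) := by linarith
  refine ⟨l.length, hc2, ?_⟩
  refine xgood_count succ Yc X l R S _ hl ?_ hX hagree hYc hfol ?_
  · have hY : 0 ≤ ((Yc.card : ℝ) * m) / (l.length : ℝ) := by positivity
    positivity
  · intro φ hφ
    have hm : ∀ a, ((l.filter (fun st => st.a = a)).length : ℝ) ≤ m := by
      intro a
      by_cases ha : a ∈ P
      · have h1 : ((l.filter (fun st => st.a = a)).length : ℝ) ≤
            ((univ.filter fun b => Dg b a).card : ℝ) := by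
          exact_mod_cast xgood_mult l R hl a
        exact h1.trans (hindeg a ha)
      · have h1 : l.filter (fun st => st.a = a) = [] := by
          rw [List.filter_eq_nil_iff]
          intro st hs
          have := (hst st hs).1
          simp only [decide_eq_true_eq]
          rintro rfl
          exact ha this
        rw [h1]
        simpa using hm0
    have hne : ∀ st ∈ l, st.w ≠ [] := fun st hs => (hst st hs).2.2.1
    refine (xprod_cand hD succ Yc (hinj φ hφ) l hm0 hm hne).trans ?_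
    have hY : 0 ≤ (((Yc.card : ℝ) * m) / (l.length : ℝ)) ^ l.length := by positivity
    refine mul_le_mul_of_nonneg_right ?_ hY
    exact pow_le_pow_right₀ h2D hc1

end Vale.Agent.Lib.P064
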