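import Vale.Agent.Lib.P064X.XFinal
import Vale.Agent.Lib.P064N.Final

/-!
A uniform exponent.
-/

open Finset

namespace Vale.Agent.Lib.P064

/-- The numerics of the uniform bound: `q ≤ 4 n^(-4/5)`, `n q ≥ L^(1/5)`. -/
lemma xK_uniform {n : ℕ} {q : ℝ} (hn : 2 ≤ n) (hL : 23 ≤ Real.log n) (hq0 : 0 < q)
    (hqlow : Real.log n ^ ((1 : ℝ) / 5) ≤ (n : ℝ) * q)
    (hQ : (4 / 5) * Real.log n - 2 ≤ - Real.log q) :
    xK n q ≤ xC * (Real.exp 16 + 1) * (1 + Real.log n) ^ ((4 : ℝ) / 5) := by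
  have hn0 : (0 : ℝ) < n := by
    have : (2 : ℝ) ≤ n := by exact_mod_cast hn
    linarith
  obtain ⟨L, hLdef⟩ : ∃ L, L = Real.log n := ⟨_, rfl⟩
  rw [← hLdef] at hL hqlow hQ ⊢
  have hL0 : 0 < L := by linarith
  have hr0 : (0 : ℝ) < (n : ℝ) * q := by positivity
  have hg : Real.log ((n : ℝ) * q) = L - (- Real.log q) := by
    rw [Real.log_mul hn0.ne' hq0.ne', hLdef]
    ring
  set lam := - Real.log q with hlam
  have hlam0 : 0 < lam := by linarith
  have hg2 : Real.log ((n : ℝ) * q) + 1 ≤ L / 5 + 3 := by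
    rw [hg]
    linarith
  have hlogL0 : 0 ≤ Real.log L := Real.log_nonneg (by linarith)
  have hlogL1 : Real.log L ≤ L := by
    have := Real.log_le_sub_one_of_pos hL0
    linarith
  -- the exponent
  have hkap : xKap n q ≤ (4 / 5) * Real.log L + 16 := by
    unfold xKap
    rw [← hLdef]
    have hden : 0 < (4 / 5) * L - 2 := by linarith
    have h1 : (16 / 5) * (Real.log ((n : ℝ) * q) + 1) * Real.log L / lam ≤
        (16 / 5) * (L / 5 + 3) * Real.log L / ((4 / 5) * L - 2) := by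
      apply div_le_div₀ (by positivity) _ hden hQ
      apply mul_le_mul_of_nonneg_right _ hlogL0
      apply mul_le_mul_of_nonneg_left hg2 (by norm_num)
    refine h1.trans ?_
    rw [div_le_iff₀ hden]
    have h3 : (16 / 5) * (L / 5 + 3) * Real.log L =
        (4 / 5) * Real.log L * ((4 / 5) * L - 2) + (56 / 5) * Real.log L := by ring
    rw [h3]
    have h4 : (56 / 5) * Real.log L ≤ 16 * ((4 / 5) * L - 2) := by nlinarith
    nlinarith
  have hexp : Real.exp (xKap n q) ≤ Real.exp 16 * (1 + L) ^ ((4 : ℝ) / 5) := by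
    have h1 := Real.exp_le_exp.2 hkap
    refine h1.trans ?_
    have h2 : Real.exp ((4 / 5) * Real.log L + 16) = Real.exp 16 * L ^ ((4 : ℝ) / 5) := by
      rw [Real.rpow_def_of_pos hL0, ← Real.exp_add]
      congr 1
      ring
    rw [h2]
    apply mul_le_mul_of_nonneg_left _ (Real.exp_pos _).le
    exact Real.rpow_le_rpow hL0.le (by linarith) (by norm_num)
  have hfrac : L / ((n : ℝ) * q) ≤ (1 + L) ^ ((4 : ℝ) / 5) := by
    have hp : 0 < L ^ ((1 : ℝ) / 5) := Real.rpow_pos_of_pos hL0 _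
    have h1 : L / ((n : ℝ) * q) ≤ L / L ^ ((1 : ℝ) / 5) :=
      div_le_div_of_nonneg_left hL0.le hp hqlow
    refine h1.trans ?_
    have h2 : L / L ^ ((1 : ℝ) / 5) = L ^ ((4 : ℝ) / 5) := by
      rw [div_eq_iff hp.ne', ← Real.rpow_add hL0]
      norm_num
    rw [h2]
    exact Real.rpow_le_rpow hL0.le (by linarith) (by norm_num)
  unfold xK
  rw [← hLdef]
  have hC : 0 ≤ xC := (Real.exp_pos _).le
  have hpow : 0 ≤ (1 + L) ^ ((4 : ℝ) / 5) := by positivity
  calc xC * (Real.exp (xKap n q) + L / ((n : ℝ) * q))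
      ≤ xC * (Real.exp 16 * (1 + L) ^ ((4 : ℝ) / 5) + (1 + L) ^ ((4 : ℝ) / 5)) := by
        apply mul_le_mul_of_nonneg_left _ hC
        linarith
    _ = _ := by ring

/-- The main case of the uniform bound: `p_E ≤ n^(-4/5)`, `log n` large. -/
lemma x_uniform_q {V : Type} [Fintype V] {H : SimpleGraph V} {n : ℕ} {q P : ℝ}
    (hn : 2 ≤ n) (hV : Fintype.card V ≤ n) (hH : H ≠ ⊥) (hG : GoodDensity n q H)
    (hL : 23 ≤ Real.log n) (hq0 : 0 < q)
    (hqlow : Real.log n ^ ((1 : ℝ) / 5) ≤ (n : ℝ) * q)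
    (hqup : q ≤ 4 * P + Real.log n ^ ((1 : ℝ) / 5) / n)
    (hQ : (4 / 5) * Real.log n - 2 ≤ - Real.log q) (hP : 0 < P) :
    ∃ Θ : ℝ, pTilde n H ≤ Θ ∧ pc n H ≤ 512 * Real.log n * Θ ∧
      Θ ≤ (xA * Real.exp 1) ^ 2 * xC * (Real.exp 16 + 1) *
        (4 * (P * (1 + Real.log n) ^ ((4 : ℝ) / 5)) + 2 * (Real.log n / n)) := by
  have hn0 : (0 : ℝ) < n := by
    have : (2 : ℝ) ≤ n := by exact_mod_cast hn
    linarith
  have hL0 : 0 < Real.log n := by linarith
  have hL1 : 1 ≤ Real.log n := by linarith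
  have hr1 : (1 : ℝ) ≤ Real.log n ^ ((1 : ℝ) / 5) := Real.one_le_rpow hL1 (by norm_num)
  have hqD : 1 ≤ (n : ℝ) * q := by linarith
  have hr0 : (0 : ℝ) < (n : ℝ) * q := by linarith
  have hQ16 : 16 ≤ - Real.log q := by linarith
  have hD2 : (Real.exp 1 * ((n : ℝ) * q)) ^ 2 < n := by
    have hlog : Real.log ((n : ℝ) * q) = Real.log n + Real.log q := Real.log_mul hn0.ne' hq0.ne'
    have hE : (Real.exp 1 * ((n : ℝ) * q)) ^ 2 = Real.exp (2 * (1 + Real.log ((n : ℝ) * q))) := by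
      rw [show 2 * (1 + Real.log ((n : ℝ) * q)) = (1 + Real.log ((n : ℝ) * q)) +
        (1 + Real.log ((n : ℝ) * q)) by ring, Real.exp_add, Real.exp_add, Real.exp_log hr0]
      ring
    rw [hE]
    have h5 : Real.exp (2 * (1 + Real.log ((n : ℝ) * q))) < Real.exp (Real.log n) :=
      Real.exp_lt_exp.2 (by rw [hlog]; linarith)
    rwa [Real.exp_log hn0] at h5
  have hqe : q ≤ Real.exp (-1) := spq_of_D2 hn hq0 hD2
  have hEmb := embBound_x hG hn hV hq0 hqe hL1 hQ16 hqD hD2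
  have hK := xK_uniform hn hL hq0 hqlow hQ
  have hKpos : 0 < xK n q := by
    unfold xK
    have : 0 ≤ Real.log n / ((n : ℝ) * q) := div_nonneg hL0.le hr0.le
    have h2 := Real.exp_pos (xKap n q)
    have h3 : 0 < xC := Real.exp_pos _
    positivity
  have hxA : 0 < xA := Real.exp_pos _
  have hxC : 0 < xC := Real.exp_pos _
  have ha : 0 ≤ (xA * Real.exp 1) ^ 2 := by positivity
  have hΘ0 : 0 < (xA * Real.exp 1) ^ 2 * xK n q * q := by positivity
  refine ⟨(xA * Real.exp 1) ^ 2 * xK n q * q, pTilde_le_of_embBound hV hΘ0 hEmb,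
    pc_le_of_embBound hn hV hH hΘ0 hEmb, ?_⟩
  have hp0 : 0 < (1 + Real.log n) ^ ((4 : ℝ) / 5) := by positivity
  have hpr : (1 + Real.log n) ^ ((4 : ℝ) / 5) * Real.log n ^ ((1 : ℝ) / 5) ≤ 2 * Real.log n := by
    have h1 : Real.log n ^ ((1 : ℝ) / 5) ≤ (1 + Real.log n) ^ ((1 : ℝ) / 5) :=
      Real.rpow_le_rpow hL0.le (by linarith) (by norm_num)
    have h2 : (1 + Real.log n) ^ ((4 : ℝ) / 5) * (1 + Real.log n) ^ ((1 : ℝ) / 5) = 1 + Real.log n := by
      rw [← Real.rpow_add (by linarith)]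
      norm_num
    calc _ ≤ (1 + Real.log n) ^ ((4 : ℝ) / 5) * (1 + Real.log n) ^ ((1 : ℝ) / 5) :=
          mul_le_mul_of_nonneg_left h1 hp0.le
      _ = 1 + Real.log n := h2
      _ ≤ _ := by linarith
  have hq1 : (1 + Real.log n) ^ ((4 : ℝ) / 5) * q ≤
      4 * (P * (1 + Real.log n) ^ ((4 : ℝ) / 5)) + 2 * (Real.log n / n) := by
    have h1 : (1 + Real.log n) ^ ((4 : ℝ) / 5) * q ≤
        (1 + Real.log n) ^ ((4 : ℝ) / 5) * (4 * P + Real.log n ^ ((1 : ℝ) / 5) / n) :=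
      mul_le_mul_of_nonneg_left hqup hp0.le
    refine h1.trans ?_
    have h2 : (1 + Real.log n) ^ ((4 : ℝ) / 5) * (Real.log n ^ ((1 : ℝ) / 5) / n) ≤
        2 * (Real.log n / n) := by
      rw [← mul_div_assoc, ← mul_div_assoc]
      exact div_le_div_of_nonneg_right hpr hn0.le
    rw [mul_add]
    have h3 : (1 + Real.log n) ^ ((4 : ℝ) / 5) * (4 * P) =
        4 * (P * (1 + Real.log n) ^ ((4 : ℝ) / 5)) := by ring
    rw [h3]
    linarith
  have hE16 : 0 < Real.exp 16 + 1 := by positivity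
  calc (xA * Real.exp 1) ^ 2 * xK n q * q = (xA * Real.exp 1) ^ 2 * (xK n q * q) := by ring
    _ ≤ (xA * Real.exp 1) ^ 2 * ((xC * (Real.exp 16 + 1) * (1 + Real.log n) ^ ((4 : ℝ) / 5)) * q) := by
        apply mul_le_mul_of_nonneg_left _ ha
        exact mul_le_mul_of_nonneg_right hK hq0.le
    _ = (xA * Real.exp 1) ^ 2 * xC * (Real.exp 16 + 1) * ((1 + Real.log n) ^ ((4 : ℝ) / 5) * q) := by
        ring
    _ ≤ _ := mul_le_mul_of_nonneg_left hq1 (by positivity)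

/-- Arithmetic of the uniform bound. -/
lemma x_uniform_arith {A P L Y n Θ T1 T2 C : ℝ} (hA : 0 ≤ A) (hP : 0 ≤ P) (hY : 0 ≤ Y) (hL : 0 ≤ L) (hn : 0 < n)
    (hΘ : Θ ≤ A * (4 * (P * Y) + 2 * (L / n))) (h1 : T1 ≤ Θ) (h2 : T2 ≤ 512 * L * Θ)
    (hC1 : 4 * A ≤ C) (hC2 : 2048 * A ≤ C) :
    T1 ≤ C * (P * Y + L / n) ∧ T2 ≤ C * L * (P * Y + L / n) := by
  have hb : 0 ≤ P * Y + L / n := by positivity
  have hb1 : 0 ≤ P * Y := by positivity
  have hb2 : 0 ≤ L / n := by positivity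
  have h3 : Θ ≤ 4 * A * (P * Y + L / n) := by
    refine hΘ.trans ?_
    have : 0 ≤ A * (L / n) := by positivity
    nlinarith
  constructor
  · calc T1 ≤ Θ := h1
      _ ≤ 4 * A * (P * Y + L / n) := h3
      _ ≤ _ := mul_le_mul_of_nonneg_right hC1 hb
  · calc T2 ≤ 512 * L * Θ := h2
      _ ≤ 512 * L * (4 * A * (P * Y + L / n)) := mul_le_mul_of_nonneg_left h3 (by positivity)
      _ = 2048 * A * (L * (P * Y + L / n)) := by ring
      _ ≤ C * (L * (P * Y + L / n)) := mul_le_mul_of_nonneg_right hC2 (by positivity)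
      _ = _ := by ring

/-- Arithmetic of small `log n`. -/
lemma x_uniform_small {C₀ C₁ P L Y F T1 T2 C : ℝ} (hC₀ : 0 ≤ C₀) (hC₁ : 0 ≤ C₁) (hP : 0 < P) (hL0 : 0 ≤ L)
    (hL : L ≤ 23) (hY : 1 ≤ Y) (hF : 0 ≤ F) (h1 : T1 ≤ C₀ * P * L) (h2 : T2 ≤ C₁ * P * L ^ 2)
    (hC1 : 23 * C₀ ≤ C) (hC2 : 23 * C₁ ≤ C) :
    T1 ≤ C * (P * Y + F) ∧ T2 ≤ C * L * (P * Y + F) := by
  have hbase : 0 ≤ P * Y + F := by positivity
  have hPY : P ≤ P * Y + F := by nlinarith
  constructor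
  · calc T1 ≤ C₀ * P * L := h1
      _ ≤ C₀ * P * 23 := mul_le_mul_of_nonneg_left hL (by positivity)
      _ = (23 * C₀) * P := by ring
      _ ≤ (23 * C₀) * (P * Y + F) := mul_le_mul_of_nonneg_left hPY (by positivity)
      _ ≤ _ := mul_le_mul_of_nonneg_right hC1 hbase
  · calc T2 ≤ C₁ * P * L ^ 2 := h2
      _ = C₁ * L * P * L := by ring
      _ ≤ C₁ * L * P * 23 := mul_le_mul_of_nonneg_left hL (by positivity)
      _ = (23 * C₁) * (L * P) := by ring
      _ ≤ (23 * C₁) * (L * (P * Y + F)) := by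
          apply mul_le_mul_of_nonneg_left _ (by positivity)
          exact mul_le_mul_of_nonneg_left hPY hL0
      _ ≤ C * (L * (P * Y + F)) := mul_le_mul_of_nonneg_right hC2 (by positivity)
      _ = _ := by ring

/-- Arithmetic of the sharp case. -/
lemma x_uniform_sharp {C₂ C₃ P L Y Z F T1 T2 C : ℝ} (hC₂ : 0 ≤ C₂) (hC₃ : 0 ≤ C₃) (hP : 0 < P) (hL0 : 0 ≤ L)
    (hZ0 : 0 ≤ Z) (hZ : Z ≤ Y) (hF : 0 ≤ F) (h1 : T1 ≤ C₂ * P * Z) (h2 : T2 ≤ C₃ * P * L * Z)
    (hC1 : C₂ ≤ C) (hC2 : C₃ ≤ C) :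
    T1 ≤ C * (P * Y + F) ∧ T2 ≤ C * L * (P * Y + F) := by
  have hY0 : 0 ≤ Y := hZ0.trans hZ
  have hbase : 0 ≤ P * Y + F := by positivity
  have hPY : P * Z ≤ P * Y + F := by nlinarith
  constructor
  · calc T1 ≤ C₂ * P * Z := h1
      _ = C₂ * (P * Z) := by ring
      _ ≤ C₂ * (P * Y + F) := mul_le_mul_of_nonneg_left hPY hC₂
      _ ≤ _ := mul_le_mul_of_nonneg_right hC1 hbase
  · calc T2 ≤ C₃ * P * L * Z := h2
      _ = C₃ * (L * (P * Z)) := by ring
      _ ≤ C₃ * (L * (P * Y + F)) := by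
          apply mul_le_mul_of_nonneg_left _ hC₃
          exact mul_le_mul_of_nonneg_left hPY hL0
      _ ≤ C * (L * (P * Y + F)) := mul_le_mul_of_nonneg_right hC2 (by positivity)
      _ = _ := by ring

lemma x_log4_le : Real.log 4 ≤ 2 := by
  have h2 : Real.log 4 ≤ Real.log (Real.exp 2) := by
    apply Real.log_le_log (by norm_num)
    have he := Real.add_one_le_exp (1 : ℝ)
    have h : Real.exp 2 = Real.exp 1 ^ 2 := by
      rw [← Real.exp_nat_mul]
      norm_num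
    rw [h]
    nlinarith
  rwa [Real.log_exp] at h2

/-- The main case of the uniform bound. -/
lemma x_uniform_main {V : Type} [Fintype V] {H : SimpleGraph V} {n : ℕ} (hn : 2 ≤ n)
    (hV : Fintype.card V ≤ n) (hH : H ≠ ⊥) (hL : 23 ≤ Real.log n)
    (ha : 4 / 5 < Real.log (1 / pE n H) / Real.log n) :
    ∃ Θ : ℝ, pTilde n H ≤ Θ ∧ pc n H ≤ 512 * Real.log n * Θ ∧
      Θ ≤ (xA * Real.exp 1) ^ 2 * xC * (Real.exp 16 + 1) *
        (4 * (pE n H * (1 + Real.log n) ^ ((4 : ℝ) / 5)) + 2 * (Real.log n / n)) := by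
  have hE0 : 0 < pE n H := pE_pos hn hV hH
  have hn2 : (2 : ℝ) ≤ n := by exact_mod_cast hn
  have hn0 : (0 : ℝ) < n := by linarith
  have hLpos : 0 < Real.log n := by linarith
  obtain ⟨ι⟩ : Nonempty (V ↪ Fin n) :=
    Function.Embedding.nonempty_of_card_le (by simpa using hV)
  have hlt : pE n H < 2 * pE n H := by linarith
  obtain ⟨p, ⟨h0p, h1p, hp⟩, hp2⟩ := exists_lt_of_csInf_lt (pE_set_nonempty (H := H) ι) hlt
  have hpE : pE n H ≤ p := csInf_le ⟨0, fun _ hy => hy.1⟩ ⟨h0p, h1p, hp⟩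
  have hG : GoodDensity n (2 * p) H := good_of_subgraphs h0p h1p hp
  have hp0 : 0 < p := by linarith
  have hr0 : 0 < Real.log n ^ ((1 : ℝ) / 5) := by positivity
  obtain ⟨q, hq⟩ : ∃ q, q = max (2 * p) (Real.log n ^ ((1 : ℝ) / 5) / n) := ⟨_, rfl⟩
  have hq1 : 2 * p ≤ q := by
    rw [hq]
    exact le_max_left _ _
  have hq2 : Real.log n ^ ((1 : ℝ) / 5) / n ≤ q := by
    rw [hq]
    exact le_max_right _ _
  have hq0 : 0 < q := by linarith
  have hG' : GoodDensity n q H := Vale.Agent.Lib.P064N.good_mono hG (by linarith) hq1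
  have hqlow : Real.log n ^ ((1 : ℝ) / 5) ≤ (n : ℝ) * q := by
    have := mul_le_mul_of_nonneg_left hq2 hn0.le
    rwa [mul_div_cancel₀ _ hn0.ne'] at this
  have hfrac2 : 0 ≤ Real.log n ^ ((1 : ℝ) / 5) / n := by positivity
  have hqup : q ≤ 4 * pE n H + Real.log n ^ ((1 : ℝ) / 5) / n := by
    rw [hq]
    apply max_le
    · linarith
    · linarith
  have hQ : (4 / 5) * Real.log n - 2 ≤ - Real.log q := by
    rw [hq]
    rcases le_total (2 * p) (Real.log n ^ ((1 : ℝ) / 5) / n) with h | h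
    · rw [max_eq_right h, Real.log_div hr0.ne' hn0.ne', Real.log_rpow hLpos]
      have : Real.log (Real.log n) ≤ Real.log n := by
        have := Real.log_le_sub_one_of_pos hLpos
        linarith
      linarith
    · rw [max_eq_left h]
      have h4 : Real.log (2 * p) ≤ Real.log (4 * pE n H) :=
        Real.log_le_log (by positivity) (by linarith)
      rw [Real.log_mul (by norm_num) hE0.ne'] at h4
      have hlog4 := x_log4_le
      rw [lt_div_iff₀ hLpos] at ha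
      have h5 : Real.log (1 / pE n H) = - Real.log (pE n H) := by
        rw [one_div, Real.log_inv]
      rw [h5] at ha
      linarith
  exact x_uniform_q hn hV hH hG' hL hq0 hqlow hqup hQ hE0

/-- The uniform bound. -/
theorem x_uniform :
    ∃ C : ℝ, 0 < C ∧ ∀ n : ℕ, 2 ≤ n → ∀ (V : Type) [Fintype V] (H : SimpleGraph V),
      Fintype.card V ≤ n → H ≠ ⊥ →
      pTilde n H ≤ C * (pE n H * (1 + Real.log n) ^ ((4 : ℝ) / 5) + Real.log n / n) ∧
      pc n H ≤ C * Real.log n * (pE n H * (1 + Real.log n) ^ ((4 : ℝ) / 5) + Real.log n / n) := by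
  obtain ⟨C₀, hC₀, h0⟩ := pTilde_le_pE_log
  obtain ⟨C₁, hC₁, h1⟩ := pc_le_pE_log_sq
  obtain ⟨C₂, hC₂, h2⟩ := pTilde_le_pE_sharp
  obtain ⟨C₃, hC₃, h3⟩ := pc_le_pE_sharp
  have hxA : 0 < xA := Real.exp_pos _
  have hxC : 0 < xC := Real.exp_pos _
  obtain ⟨A, hA⟩ : ∃ A : ℝ, A = (xA * Real.exp 1) ^ 2 * xC * (Real.exp 16 + 1) := ⟨_, rfl⟩
  have hA0 : 0 < A := by
    rw [hA]
    positivity
  refine ⟨2048 * A + 4 * A + 23 * C₀ + 23 * C₁ + C₂ + C₃, by positivity, ?_⟩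
  intro n hn V _ H hV hH
  have hE0 : 0 < pE n H := pE_pos hn hV hH
  have hn2 : (2 : ℝ) ≤ n := by exact_mod_cast hn
  have hn0 : (0 : ℝ) < n := by linarith
  have hLpos : 0 < Real.log n := Real.log_pos (by linarith)
  have hY1 : 1 ≤ (1 + Real.log n) ^ ((4 : ℝ) / 5) :=
    Real.one_le_rpow (by linarith) (by norm_num)
  have hfrac : 0 ≤ Real.log n / n := by positivity
  by_cases hL : 23 ≤ Real.log n
  swap
  · push Not at hL
    exact x_uniform_small hC₀.le hC₁.le hE0 hLpos.le hL.le hY1 hfrac (h0 n hn V H hV hH)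
      (h1 n hn V H hV hH) (by linarith) (by linarith)
  by_cases ha : Real.log (1 / pE n H) / Real.log n ≤ 4 / 5
  · have hpow : (1 + Real.log n) ^ (min 1 (Real.log (1 / pE n H) / Real.log n)) ≤
        (1 + Real.log n) ^ ((4 : ℝ) / 5) := by
      apply Real.rpow_le_rpow_of_exponent_le (by linarith)
      exact (min_le_right _ _).trans ha
    exact x_uniform_sharp hC₂.le hC₃.le hE0 hLpos.le (by positivity) hpow hfrac
      (h2 n hn V H hV hH) (h3 n hn V H hV hH) (by linarith) (by linarith)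
  · push Not at ha
    obtain ⟨Θ, h1Θ, h2Θ, h3Θ⟩ := x_uniform_main hn hV hH hL ha
    rw [← hA] at h3Θ
    exact x_uniform_arith (n := (n : ℝ)) hA0.le hE0.le (by linarith) hLpos.le hn0 h3Θ h1Θ h2Θ
      (by linarith) (by linarith)

end Vale.Agent.Lib.P064
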