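import Vale.Agent.Lib.P064X.XFinal

/-!
The window of the conjecture.
-/

open Finset

namespace Vale.Agent.Lib.P064

/-- The window of the conjecture: if `log n ≤ n p_E` and `log (n p_E) log log n ≤ log n` then
`p_c ≤ C p_E log n`, `tilde p_E ≤ C p_E`. For `log n ≥ 21` the hypothesis gives `log (n p_E) ≤ (log n) / 3`,
so `1000 (n p_E)^2 ≤ n`, `xExpo ≤ 26`, `log n / (n p_E) ≤ 1`. For `log n < 21`: the old bounds. -/
theorem x_window :
    ∃ C : ℝ, 0 < C ∧ ∀ (n : ℕ) (V : Type) [Fintype V] (H : SimpleGraph V), 2 ≤ n →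
      Fintype.card V ≤ n → H ≠ ⊥ → Real.log n ≤ (n : ℝ) * pE n H →
      Real.log ((n : ℝ) * pE n H) * Real.log (Real.log n) ≤ Real.log n →
      pTilde n H ≤ C * pE n H ∧ pc n H ≤ C * pE n H * Real.log n := by
  obtain ⟨C1, hC1, h1⟩ := x_thresholds
  obtain ⟨C2, hC2, h2⟩ := pTilde_le_pE_log
  obtain ⟨C3, hC3, h3⟩ := pc_le_pE_log_sq
  have hE26 : 0 < Real.exp 26 := Real.exp_pos _
  refine ⟨C1 * (Real.exp 26 + 1) + C2 * 21 + C3 * 21, by positivity, ?_⟩
  intro n V _ H hn hV hH hD hLD
  have hn2 : (2 : ℝ) ≤ n := by exact_mod_cast hn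
  have hn0 : (0 : ℝ) < n := by linarith
  have hLpos : 0 < Real.log n := Real.log_pos (by linarith)
  obtain ⟨P, hPdef⟩ : ∃ P, P = pE n H := ⟨_, rfl⟩
  have h1' := h1 n V H hn hV hH
  have h2' := h2 n hn V H hV hH
  have h3' := h3 n hn V H hV hH
  rw [← hPdef] at hD hLD h1' h2' h3' ⊢
  obtain ⟨L, hLdef⟩ : ∃ L, L = Real.log n := ⟨_, rfl⟩
  rw [← hLdef] at hD hLD h1' h2' h3' hLpos ⊢
  have hP0 : 0 < P := by
    by_contra hneg
    push Not at hneg
    have : (n : ℝ) * P ≤ 0 := mul_nonpos_of_nonneg_of_nonpos hn0.le hneg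
    linarith
  by_cases hsmall : L < 21
  · have hc : C1 * (Real.exp 26 + 1) ≥ 0 := by positivity
    constructor
    · have : C2 * P * L ≤ C2 * P * 21 :=
        mul_le_mul_of_nonneg_left hsmall.le (by positivity)
      nlinarith [mul_pos hC3 hP0]
    · have h4 : C3 * P * L ^ 2 = C3 * P * L * L := by ring
      have h5 : C3 * P * L * L ≤ C3 * 21 * P * L := by
        have h6 : 0 ≤ C3 * P * L := by positivity
        nlinarith
      have h7 : C2 * 21 * P * L ≥ 0 := by positivity
      have h8 : C1 * (Real.exp 26 + 1) * P * L ≥ 0 := by positivity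
      nlinarith
  · push Not at hsmall
    obtain ⟨D, hDdef⟩ : ∃ D, D = (n : ℝ) * P := ⟨_, rfl⟩
    rw [← hDdef] at hD hLD h1'
    have hD0 : 0 < D := by linarith
    have hlogD0 : 0 < Real.log D := Real.log_pos (by linarith)
    have hLL3 : 3 ≤ Real.log L := by
      rw [Real.le_log_iff_exp_le hLpos]
      have he := Real.exp_one_lt_d9
      have h4 : Real.exp 3 = Real.exp 1 ^ 3 := by
        rw [← Real.exp_nat_mul]
        norm_num
      rw [h4]
      have h5 : Real.exp 1 ^ 3 ≤ (2.7182818286 : ℝ) ^ 3 :=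
        pow_le_pow_left₀ (Real.exp_pos _).le he.le 3
      norm_num at h5
      linarith
    have hlogD : 3 * Real.log D ≤ L := by nlinarith
    have hLLle : Real.log L ≤ L / 2 := by
      have h4 : L ≤ Real.exp (L / 2) := by
        have h5 := Real.quadratic_le_exp_of_nonneg (x := L / 2) (by linarith)
        nlinarith
      calc Real.log L ≤ Real.log (Real.exp (L / 2)) := Real.log_le_log hLpos h4
        _ = L / 2 := Real.log_exp _
    have hexpn : Real.exp L = n := by
      rw [hLdef, Real.exp_log hn0]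
    have hDexp : Real.exp (Real.log D) = D := Real.exp_log hD0
    have h1000 : 1000 * D ^ 2 ≤ n := by
      have h1 : (1000 : ℝ) ≤ Real.exp 7 := by
        have he := Real.exp_one_gt_d9
        have h4 : Real.exp 7 = Real.exp 1 ^ 7 := by
          rw [← Real.exp_nat_mul]
          norm_num
        rw [h4]
        have h5 : (2.7182818283 : ℝ) ^ 7 ≤ Real.exp 1 ^ 7 :=
          pow_le_pow_left₀ (by norm_num) he.le 7
        norm_num at h5
        linarith
      have h2 : D ^ 2 = Real.exp (2 * Real.log D) := by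
        rw [two_mul, Real.exp_add, hDexp]
        ring
      rw [h2, ← hexpn]
      calc 1000 * Real.exp (2 * Real.log D)
          ≤ Real.exp 7 * Real.exp (2 * Real.log D) :=
            mul_le_mul_of_nonneg_right h1 (Real.exp_pos _).le
        _ = Real.exp (7 + 2 * Real.log D) := by rw [Real.exp_add]
        _ ≤ Real.exp L := Real.exp_le_exp.2 (by linarith)
    have hD1 : 1 ≤ D := by linarith
    have hth := h1' hD1 h1000
    have hExpo : xExpo n P ≤ 26 := by
      unfold xExpo
      rw [← hDdef, ← hLdef]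
      have hden : 4 / 7 * L ≤ L - Real.log D - 2 := by linarith
      have hdenpos : 0 < L - Real.log D - 2 := by linarith
      rw [div_le_iff₀ hdenpos]
      have hnum : 16 / 5 * (Real.log D + 3) * Real.log L ≤ 8 * L := by
        have : (Real.log D + 3) * Real.log L ≤ 5 / 2 * L := by nlinarith
        nlinarith
      nlinarith
    have hexp : Real.exp (xExpo n P) ≤ Real.exp 26 := Real.exp_le_exp.2 hExpo
    have hfrac : L / D ≤ 1 := (div_le_one hD0).2 hD
    have hfrac0 : 0 ≤ L / D := by positivity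
    have hB : Real.exp (xExpo n P) + L / D ≤ Real.exp 26 + 1 := by linarith
    have hB0 : 0 ≤ Real.exp (xExpo n P) + L / D := by
      have := Real.exp_pos (xExpo n P)
      linarith
    constructor
    · calc pTilde n H ≤ C1 * P * (Real.exp (xExpo n P) + L / D) := hth.1
        _ ≤ C1 * P * (Real.exp 26 + 1) := mul_le_mul_of_nonneg_left hB (by positivity)
        _ ≤ (C1 * (Real.exp 26 + 1) + C2 * 21 + C3 * 21) * P := by
            have : 0 ≤ C2 * 21 * P := by positivity
            have : 0 ≤ C3 * 21 * P := by positivity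
            nlinarith
    · calc pc n H ≤ C1 * P * L * (Real.exp (xExpo n P) + L / D) := hth.2
        _ ≤ C1 * P * L * (Real.exp 26 + 1) := mul_le_mul_of_nonneg_left hB (by positivity)
        _ ≤ (C1 * (Real.exp 26 + 1) + C2 * 21 + C3 * 21) * P * L := by
            have : 0 ≤ C2 * 21 * P * L := by positivity
            have : 0 ≤ C3 * 21 * P * L := by positivity
            nlinarith

end Vale.Agent.Lib.P064
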